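import Vale.Agent.P166.Gibbs

namespace Vale.Agent.P166

open MeasureTheory Filter Topology Matrix

variable {N : ℕ}

theorem spins_nonempty : (spins N).Nonempty := by
  refine ⟨fun _ => 1, ?_⟩
  simp [spins]

/-- squares of the coordinates of `U σ` -/
noncomputable def sq (U : Fin N → Fin N → ℝ) (i : Fin N) (σ : Fin N → ℝ) : ℝ :=
  ((Matrix.of U) *ᵥ σ) i ^ 2

/-- energy -/
noncomputable def en (β : ℝ) (lam : Fin N → ℝ) (U : Fin N → Fin N → ℝ) (σ : Fin N → ℝ) : ℝ :=
  β / 2 * ∑ i, lam i * sq U i σ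

theorem quad_eq (lam : Fin N → ℝ) (U : Fin N → Fin N → ℝ) (σ : Fin N → ℝ) :
    σ ⬝ᵥ ((Matrix.of U)ᵀ * Matrix.diagonal lam * Matrix.of U) *ᵥ σ = ∑ i, lam i * sq U i σ := by
  rw [← Matrix.mulVec_mulVec, ← Matrix.mulVec_mulVec, Matrix.dotProduct_mulVec,
    Matrix.vecMul_transpose]
  unfold dotProduct sq
  refine Finset.sum_congr rfl fun i _ => ?_
  rw [Matrix.mulVec_diagonal]
  ring

theorem pressure_eq (β : ℝ) (lam : Fin N → ℝ) (U : Fin N → Fin N → ℝ) :
    pressure β lam U = 1 / N * Real.log ((1 / 2) ^ N) +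
      1 / N * Real.log (Zf (spins N) (en β lam U)) := by
  unfold pressure
  rw [← mul_add, ← Real.log_mul (by positivity) (Zf_pos spins_nonempty _).ne']
  simp only [quad_eq]
  rfl

theorem sq_nonneg' (U : Fin N → Fin N → ℝ) (i : Fin N) (σ : Fin N → ℝ) : 0 ≤ sq U i σ :=
  sq_nonneg _

theorem sum_sq {U : Fin N → Fin N → ℝ} (hU : Matrix.of U ∈ Matrix.orthogonalGroup (Fin N) ℝ)
    {σ : Fin N → ℝ} (hσ : σ ∈ spins N) : ∑ i, sq U i σ = N := by
  have h1 : ∑ i, sq U i σ = ((Matrix.of U) *ᵥ σ) ⬝ᵥ ((Matrix.of U) *ᵥ σ) := by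
    unfold dotProduct sq
    refine Finset.sum_congr rfl fun i _ => by ring
  rw [h1, Matrix.dotProduct_mulVec, Matrix.vecMul_mulVec,
    (Matrix.mem_orthogonalGroup_iff' (A := Matrix.of U)).1 hU]
  simp only [Matrix.vecMul_one, dotProduct]
  have h2 : ∀ i, σ i * σ i = 1 := by
    intro i
    have := (Fintype.mem_piFinset.1 hσ) i
    simp at this
    rcases this with h | h <;> rw [h] <;> norm_num
  simp [h2]

/-- Gibbs mean of the `i`-th square -/
noncomputable def wt (β : ℝ) (lam : Fin N → ℝ) (U : Fin N → Fin N → ℝ) (i : Fin N) : ℝ :=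
  gm (spins N) (en β lam U) (sq U i)

theorem wt_nonneg (β : ℝ) (lam : Fin N → ℝ) (U : Fin N → Fin N → ℝ) (i : Fin N) :
    0 ≤ wt β lam U i :=
  div_nonneg (Finset.sum_nonneg fun _ _ => mul_nonneg (Real.exp_pos _).le (sq_nonneg' _ _ _))
    (Zf_pos spins_nonempty _).le

theorem sum_wt (β : ℝ) (lam : Fin N → ℝ) {U : Fin N → Fin N → ℝ}
    (hU : Matrix.of U ∈ Matrix.orthogonalGroup (Fin N) ℝ) : ∑ i, wt β lam U i = N := by
  unfold wt gm
  rw [← Finset.sum_div, Finset.sum_comm, div_eq_iff (Zf_pos spins_nonempty _).ne']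
  unfold Zf
  rw [Finset.mul_sum]
  refine Finset.sum_congr rfl fun σ hσ => ?_
  rw [← Finset.mul_sum, sum_sq hU hσ]
  ring

theorem wt_le (β : ℝ) (lam : Fin N → ℝ) {U : Fin N → Fin N → ℝ}
    (hU : Matrix.of U ∈ Matrix.orthogonalGroup (Fin N) ℝ) (i : Fin N) : wt β lam U i ≤ N := by
  rw [← sum_wt β lam hU]
  exact Finset.single_le_sum (fun j _ => wt_nonneg β lam U j) (Finset.mem_univ i)

/-- the pointwise comparison -/
theorem pressure_diff {β : ℝ} (hβ : 0 ≤ β) (a b : Fin N → ℝ) (U : Fin N → Fin N → ℝ) :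
    |pressure β a U - pressure β b U| ≤
      1 / N * (β / 2 * ∑ i, |a i - b i| * wt β (fun i => max (a i) (b i)) U i) := by
  have h0 : (0 : ℝ) ≤ 1 / N := by positivity
  set p : Fin N → ℝ := fun i => max (a i) (b i) with hp
  set m : Fin N → ℝ := fun i => min (a i) (b i) with hm
  have hmono : ∀ x y : Fin N → ℝ, (∀ i, x i ≤ y i) →
      Real.log (Zf (spins N) (en β x U)) ≤ Real.log (Zf (spins N) (en β y U)) := by
    intro x y hxy
    refine Real.log_le_log (Zf_pos spins_nonempty _) (Zf_mono fun σ _ => ?_)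
    unfold en
    refine mul_le_mul_of_nonneg_left ?_ (by linarith)
    exact Finset.sum_le_sum fun i _ => mul_le_mul_of_nonneg_right (hxy i) (sq_nonneg' _ _ _)
  have hap := hmono a p fun i => le_max_left _ _
  have hbp := hmono b p fun i => le_max_right _ _
  have hma := hmono m a fun i => min_le_left _ _
  have hmb := hmono m b fun i => min_le_right _ _
  have hgr := log_sub_le (S := spins N) spins_nonempty (en β p U) (en β m U)
  have hE : ∀ σ, en β p U σ - en β m U σ = β / 2 * ∑ i, |a i - b i| * sq U i σ := by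
    intro σ
    unfold en
    rw [← mul_sub, ← Finset.sum_sub_distrib]
    congr 1
    refine Finset.sum_congr rfl fun i _ => ?_
    have : p i - m i = |a i - b i| := by
      rw [hp, hm]
      simpa using max_sub_min_eq_abs (a i) (b i) |>.trans (abs_sub_comm _ _)
    rw [← sub_mul, this]
  have hgm : gm (spins N) (en β p U) (fun σ => en β p U σ - en β m U σ) =
      β / 2 * ∑ i, |a i - b i| * wt β p U i := by
    simp only [hE]
    unfold wt gm
    have : ∀ i, |a i - b i| * ((∑ s ∈ spins N, Real.exp (en β p U s) * sq U i s) /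
        Zf (spins N) (en β p U)) = (∑ s ∈ spins N, |a i - b i| *
        (Real.exp (en β p U s) * sq U i s)) / Zf (spins N) (en β p U) := by
      intro i; rw [← Finset.mul_sum]; ring
    simp only [this]
    rw [← Finset.sum_div, Finset.sum_comm, mul_div_assoc', Finset.mul_sum]
    congr 1
    refine Finset.sum_congr rfl fun s _ => ?_
    rw [Finset.mul_sum, Finset.mul_sum, Finset.mul_sum]
    refine Finset.sum_congr rfl fun i _ => by ring
  rw [hgm] at hgr
  rw [pressure_eq, pressure_eq]
  have : |1 / (N : ℝ) * Real.log ((1 / 2) ^ N) + 1 / N * Real.log (Zf (spins N) (en β a U)) -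
      (1 / N * Real.log ((1 / 2) ^ N) + 1 / N * Real.log (Zf (spins N) (en β b U)))| =
      1 / N * |Real.log (Zf (spins N) (en β a U)) - Real.log (Zf (spins N) (en β b U))| := by
    rw [add_sub_add_left_eq_sub, ← mul_sub, abs_mul, abs_of_nonneg h0]
  rw [this]
  refine mul_le_mul_of_nonneg_left ?_ h0
  rw [abs_le]
  constructor <;> linarith

/-- permuting the rows of `U` -/
def permRows (τ : Equiv.Perm (Fin N)) (U : Fin N → Fin N → ℝ) : Fin N → Fin N → ℝ :=
  fun i => U (τ i)

theorem sq_permRows (τ : Equiv.Perm (Fin N)) (U : Fin N → Fin N → ℝ) (i : Fin N)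
    (σ : Fin N → ℝ) : sq (permRows τ U) i σ = sq U (τ i) σ := rfl

theorem permRows_inv {ν : Measure (Fin N → Fin N → ℝ)} (hν : IsHaar N ν)
    (τ : Equiv.Perm (Fin N)) : ν.map (permRows τ) = ν := by
  have hV : (τ.permMatrix ℝ) ∈ Matrix.orthogonalGroup (Fin N) ℝ := by
    rw [Matrix.mem_orthogonalGroup_iff]
    ext i j
    simp only [Matrix.mul_apply, Equiv.Perm.permMatrix, PEquiv.toMatrix_apply, Matrix.one_apply,
      Equiv.toPEquiv_apply, Option.mem_some_iff]
    simp [eq_comm]
  have h := hν.inv _ hV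
  have e : (fun U : Fin N → Fin N → ℝ => Matrix.of.symm (τ.permMatrix ℝ * Matrix.of U)) =
      permRows τ := by
    funext U i j
    simp [Matrix.mul_apply, Equiv.Perm.permMatrix, PEquiv.toMatrix_apply, permRows]
  rw [e] at h
  exact h

theorem measurable_permRows (τ : Equiv.Perm (Fin N)) : Measurable (permRows (N := N) τ) :=
  measurable_pi_lambda _ fun i => measurable_pi_apply (τ i)

theorem measurable_sq (i : Fin N) (σ : Fin N → ℝ) :
    Measurable fun U : Fin N → Fin N → ℝ => sq U i σ := by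
  have : Continuous fun U : Fin N → Fin N → ℝ => sq U i σ := by
    unfold sq
    simp only [Matrix.mulVec, dotProduct, Matrix.of_apply]
    fun_prop
  exact this.measurable

theorem measurable_en (β : ℝ) (lam : Fin N → ℝ) (σ : Fin N → ℝ) :
    Measurable fun U : Fin N → Fin N → ℝ => en β lam U σ := by
  unfold en
  exact (Finset.measurable_sum _ fun i _ => (measurable_sq i σ).const_mul _).const_mul _

theorem measurable_wt (β : ℝ) (lam : Fin N → ℝ) (i : Fin N) :
    Measurable fun U : Fin N → Fin N → ℝ => wt β lam U i := by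
  unfold wt gm Zf
  exact (Finset.measurable_sum _ fun σ _ => ((measurable_en β lam σ).exp.mul
    (measurable_sq i σ))).div (Finset.measurable_sum _ fun σ _ => (measurable_en β lam σ).exp)

theorem measurable_pressure (β : ℝ) (lam : Fin N → ℝ) :
    Measurable fun U : Fin N → Fin N → ℝ => pressure β lam U := by
  simp only [pressure_eq]
  unfold Zf
  exact ((Finset.measurable_sum _ fun σ _ => (measurable_en β lam σ).exp).log.const_mul _).const_add _

theorem integrable_wt {ν : Measure (Fin N → Fin N → ℝ)} (hν : IsHaar N ν) (β : ℝ)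
    (lam : Fin N → ℝ) (i : Fin N) : Integrable (fun U => wt β lam U i) ν := by
  have := hν.prob
  refine Integrable.of_bound (measurable_wt β lam i).aestronglyMeasurable (N : ℝ) ?_
  filter_upwards [hν.orth] with U hU
  rw [Real.norm_eq_abs, abs_of_nonneg (wt_nonneg _ _ _ _)]
  exact wt_le β lam hU i

/-- mean weights -/
noncomputable def Wt (ν : Measure (Fin N → Fin N → ℝ)) (β : ℝ) (lam : Fin N → ℝ) (i : Fin N) : ℝ :=
  ∫ U, wt β lam U i ∂ν

theorem Wt_nonneg (ν : Measure (Fin N → Fin N → ℝ)) (β : ℝ) (lam : Fin N → ℝ) (i : Fin N) :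
    0 ≤ Wt ν β lam i := integral_nonneg fun U => wt_nonneg β lam U i

theorem sum_Wt {ν : Measure (Fin N → Fin N → ℝ)} (hν : IsHaar N ν) (β : ℝ) (lam : Fin N → ℝ) :
    ∑ i, Wt ν β lam i = N := by
  have := hν.prob
  unfold Wt
  rw [← integral_finsetSum _ fun i _ => integrable_wt hν β lam i]
  have : ∫ U, ∑ i, wt β lam U i ∂ν = ∫ _U, (N : ℝ) ∂ν :=
    integral_congr_ae (by filter_upwards [hν.orth] with U hU using sum_wt β lam hU)
  rw [this]
  simp

theorem en_permRows (β : ℝ) (lam : Fin N → ℝ) (τ : Equiv.Perm (Fin N))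
    (U : Fin N → Fin N → ℝ) (σ : Fin N → ℝ) :
    en β (lam ∘ τ) (permRows τ U) σ = en β lam U σ := by
  unfold en
  congr 1
  exact Equiv.sum_comp τ fun i => lam i * sq U i σ

theorem pressure_permRows (β : ℝ) (lam : Fin N → ℝ) (τ : Equiv.Perm (Fin N))
    (U : Fin N → Fin N → ℝ) :
    pressure β (lam ∘ τ) (permRows τ U) = pressure β lam U := by
  rw [pressure_eq, pressure_eq]
  have : en β (lam ∘ τ) (permRows τ U) = en β lam U := funext fun σ => en_permRows β lam τ U σ
  rw [this]

/-- a larger eigenvalue has a larger weight -/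
theorem Wt_mono {ν : Measure (Fin N → Fin N → ℝ)} (hν : IsHaar N ν) {β : ℝ} (hβ : 0 ≤ β)
    (lam : Fin N → ℝ) {i j : Fin N} (hij : lam i ≤ lam j) : Wt ν β lam i ≤ Wt ν β lam j := by
  classical
  by_cases hne : i = j
  · rw [hne]
  set τ := Equiv.swap i j with hτ
  -- `W_i = ∫ w_j (U; lam ∘ τ)`
  have hchg : ∀ k, Wt ν β lam k = ∫ U, wt β (lam ∘ τ) U (τ k) ∂ν := by
    intro k
    unfold Wt
    conv_lhs => rw [← permRows_inv hν τ]
    rw [integral_map (measurable_permRows τ).aemeasurable
      (measurable_wt β lam k).aestronglyMeasurable]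
    refine integral_congr_ae (Eventually.of_forall fun U => ?_)
    simp only
    unfold wt
    have h1 : en β lam (permRows τ U) = en β (lam ∘ τ) U := by
      funext σ
      have := en_permRows β (lam ∘ τ) τ U σ
      rw [← this]
      congr 1
      funext x
      simp [hτ]
    have h2 : sq (permRows τ U) k = sq U (τ k) := rfl
    rw [h1, h2]
  have hi := hchg i
  have hj := hchg j
  rw [hτ, Equiv.swap_apply_left, ← hτ] at hi
  rw [hτ, Equiv.swap_apply_right, ← hτ] at hj
  have hint : ∀ (l : Fin N → ℝ) k, Integrable (fun U => wt β l U k) ν := fun l k =>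
    integrable_wt hν β l k
  have key : 0 ≤ ∫ U, ((wt β lam U j - wt β lam U i) -
      (wt β (lam ∘ τ) U j - wt β (lam ∘ τ) U i)) ∂ν := by
    refine integral_nonneg fun U => ?_
    simp only [Pi.zero_apply]
    set D : (Fin N → ℝ) → ℝ := fun σ => sq U j σ - sq U i σ with hD
    have hgmD : ∀ l : Fin N → ℝ, wt β l U j - wt β l U i = gm (spins N) (en β l U) D := by
      intro l
      unfold wt gm
      rw [← sub_div, ← Finset.sum_sub_distrib]
      congr 1
      exact Finset.sum_congr rfl fun σ _ => by rw [hD]; ring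
    rw [hgmD, hgmD]
    have hE : en β (lam ∘ τ) U = fun σ => en β lam U σ - (β / 2 * (lam j - lam i)) * D σ := by
      funext σ
      unfold en
      have h3 : ∑ k, (lam ∘ τ) k * sq U k σ - ∑ k, lam k * sq U k σ =
          -((lam j - lam i) * D σ) := by
        rw [← Finset.sum_sub_distrib]
        have h4 : ∀ k, k ∉ ({i, j} : Finset (Fin N)) →
            (lam ∘ τ) k * sq U k σ - lam k * sq U k σ = 0 := by
          intro k hk
          simp only [Finset.mem_insert, Finset.mem_singleton, not_or] at hk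
          simp [hτ, Equiv.swap_apply_of_ne_of_ne hk.1 hk.2]
        rw [← Finset.sum_subset (Finset.subset_univ ({i, j} : Finset (Fin N)))
          (fun k _ hk => h4 k hk), Finset.sum_pair hne]
        simp only [Function.comp, hτ, Equiv.swap_apply_left, Equiv.swap_apply_right, hD]
        ring
      have h5 : ∑ k, (lam ∘ τ) k * sq U k σ = ∑ k, lam k * sq U k σ - (lam j - lam i) * D σ := by
        linarith
      rw [h5]; ring
    rw [hE]
    have := gm_tilt (S := spins N) spins_nonempty (en β lam U) D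
      (δ := β / 2 * (lam j - lam i)) (mul_nonneg (by linarith) (by linarith))
    linarith
  have e1 : ∫ U, ((wt β lam U j - wt β lam U i) -
      (wt β (lam ∘ τ) U j - wt β (lam ∘ τ) U i)) ∂ν =
      (∫ U, (wt β lam U j - wt β lam U i) ∂ν) -
      ∫ U, (wt β (lam ∘ τ) U j - wt β (lam ∘ τ) U i) ∂ν :=
    integral_sub ((hint _ _).sub (hint _ _)) ((hint _ _).sub (hint _ _))
  have e2 : ∫ U, (wt β lam U j - wt β lam U i) ∂ν = Wt ν β lam j - Wt ν β lam i :=
    integral_sub (hint _ _) (hint _ _)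
  have e3 : ∫ U, (wt β (lam ∘ τ) U j - wt β (lam ∘ τ) U i) ∂ν =
      Wt ν β lam i - Wt ν β lam j := by
    rw [integral_sub (hint _ _) (hint _ _), hi, hj]
  rw [e1, e2, e3] at key
  linarith

end Vale.Agent.P166
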