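import Mathlib

/-! P166: orthogonally invariant Ising spin glasses -/

namespace Vale.Agent.P166

open MeasureTheory Filter Topology Matrix

/-- The spin configurations `{-1, 1}^N`. -/
noncomputable def spins (N : ℕ) : Finset (Fin N → ℝ) := Fintype.piFinset fun _ => {-1, 1}

/-- The pressure `P_N(β) = (1/N) log (2^{-N} ∑_σ exp ((β/2) σᵀ J σ))` for the coupling matrix
`J = Uᵀ diag(lam) U`. -/
noncomputable def pressure (β : ℝ) {N : ℕ} (lam : Fin N → ℝ) (U : Fin N → Fin N → ℝ) : ℝ :=
  1 / N * Real.log ((1 / 2) ^ N * ∑ σ ∈ spins N,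
    Real.exp (β / 2 * (σ ⬝ᵥ ((Matrix.of U)ᵀ * Matrix.diagonal lam * Matrix.of U) *ᵥ σ)))

/-- `ν` is the Haar probability measure of the orthogonal group `O(N)`, as a measure on matrices
(arrays of entries): it is carried by `O(N)` and invariant under left multiplication by every
element of `O(N)`. -/
structure IsHaar (N : ℕ) (ν : Measure (Fin N → Fin N → ℝ)) : Prop where
  prob : IsProbabilityMeasure ν
  orth : ∀ᵐ U ∂ν, Matrix.of U ∈ Matrix.orthogonalGroup (Fin N) ℝ
  inv : ∀ V ∈ Matrix.orthogonalGroup (Fin N) ℝ,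
    ν.map (fun U => Matrix.of.symm (V * Matrix.of U)) = ν

/-- The eigenvalue arrays `Λ_N` allowed in the problem: the empirical measures converge weakly
to `μ`, and the smallest and largest eigenvalues converge to the ends of the support. -/
structure Admissible (μ : Measure ℝ) (lam : ∀ N : ℕ, Fin N → ℝ) : Prop where
  weak : ∀ f : BoundedContinuousFunction ℝ ℝ,
    Tendsto (fun N : ℕ => 1 / (N : ℝ) * ∑ i, f (lam N i)) atTop (𝓝 (∫ x, f x ∂μ))
  bot : Tendsto (fun N => ⨅ i, lam N i) atTop (𝓝 (sInf μ.support))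
  top : Tendsto (fun N => ⨆ i, lam N i) atTop (𝓝 (sSup μ.support))

end Vale.Agent.P166
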