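import Vale.Agent.P166.Main

namespace Vale.Agent.P166

open MeasureTheory Filter Topology

theorem final_lip {μ : Measure ℝ} [IsProbabilityMeasure μ] (hμ : IsCompact μ.support)
    {a b : ∀ N : ℕ, Fin N → ℝ} (ha : Admissible μ a) (hb : Admissible μ b)
    {ν : ∀ N : ℕ, Measure (Fin N → Fin N → ℝ)} (hν : ∀ N, IsHaar N (ν N)) {β : ℝ} (hβ : 0 ≤ β)
    {φ : ℝ → ℝ} {K : NNReal} (hφ : LipschitzWith K φ) :
    Tendsto (fun N : ℕ => (∫ U, φ (pressure β (a N) U) ∂(ν N)) -
      ∫ U, φ (pressure β (b N) U) ∂(ν N)) atTop (𝓝 0) := by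
  have h1 := tendsto_L1 hμ ha.sorted hb.sorted (fun N => Tuple.monotone_sort (a N))
    (fun N => Tuple.monotone_sort (b N)) hν hβ
  have h2 : ∀ (c : ∀ N : ℕ, Fin N → ℝ) (N : ℕ), ∫ U, φ (pressure β (c N) U) ∂(ν N) =
      ∫ U, φ (pressure β (c N ∘ Tuple.sort (c N)) U) ∂(ν N) := by
    intro c N
    have h3 := law_perm (hν N) β (c N) (Tuple.sort (c N))
    have h4 : ∀ l : Fin N → ℝ, ∫ U, φ (pressure β l U) ∂(ν N) =
        ∫ x, φ x ∂((ν N).map (pressure β l)) := fun l =>
      (integral_map (measurable_pressure β l).aemeasurable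
        hφ.continuous.aestronglyMeasurable).symm
    rw [h4, h4, h3]
  rw [tendsto_zero_iff_norm_tendsto_zero]
  refine squeeze_zero (fun N => norm_nonneg _) (fun N => ?_)
    (by simpa using h1.const_mul (K : ℝ))
  rw [h2 a N, h2 b N, ← integral_sub (integrable_pressure (hν N) hβ _ hφ)
    (integrable_pressure (hν N) hβ _ hφ), ← integral_const_mul]
  refine (norm_integral_le_integral_norm _).trans ?_
  have h5 := integrable_pressure (hν N) hβ (a N ∘ Tuple.sort (a N)) LipschitzWith.id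
  have h6 := integrable_pressure (hν N) hβ (b N ∘ Tuple.sort (b N)) LipschitzWith.id
  refine integral_mono_of_nonneg (Eventually.of_forall fun U => norm_nonneg _)
    ((h5.sub h6).abs.const_mul _) (Eventually.of_forall fun U => ?_)
  have h7 := hφ.dist_le_mul (pressure β (a N ∘ Tuple.sort (a N)) U)
    (pressure β (b N ∘ Tuple.sort (b N)) U)
  rw [Real.dist_eq, Real.dist_eq] at h7
  exact h7

theorem final_prob {μ : Measure ℝ} [IsProbabilityMeasure μ] (hμ : IsCompact μ.support)
    {a b : ∀ N : ℕ, Fin N → ℝ} (ha : Admissible μ a) (hb : Admissible μ b)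
    {ν : ∀ N : ℕ, Measure (Fin N → Fin N → ℝ)} (hν : ∀ N, IsHaar N (ν N)) {β : ℝ} (hβ : 0 ≤ β)
    {l : ℝ} (h : ∀ ε, 0 < ε → Tendsto (fun N => ν N {U | ε ≤ |pressure β (a N) U - l|})
      atTop (𝓝 0)) :
    ∀ ε, 0 < ε → Tendsto (fun N => ν N {U | ε ≤ |pressure β (b N) U - l|}) atTop (𝓝 0) := by
  intro ε hε
  have h1 := tendsto_L1 hμ ha.sorted hb.sorted (fun N => Tuple.monotone_sort (a N))
    (fun N => Tuple.monotone_sort (b N)) hν hβ
  have hset : ∀ δ : ℝ, MeasurableSet {x : ℝ | δ ≤ |x - l|} := fun δ =>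
    measurableSet_le measurable_const (measurable_id.sub_const l).norm
  have h2 : ∀ (c : ∀ N : ℕ, Fin N → ℝ) (N : ℕ) (δ : ℝ), ν N {U | δ ≤ |pressure β (c N) U - l|} =
      ν N {U | δ ≤ |pressure β (c N ∘ Tuple.sort (c N)) U - l|} := by
    intro c N δ
    have h3 := law_perm (hν N) β (c N) (Tuple.sort (c N))
    have h4 : ∀ l' : Fin N → ℝ, ν N {U | δ ≤ |pressure β l' U - l|} =
        ((ν N).map (pressure β l')) {x : ℝ | δ ≤ |x - l|} := fun l' => by
      rw [Measure.map_apply (measurable_pressure β l') (hset δ)]; rfl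
    rw [h4, h4, h3]
  have h3 := h (ε / 2) (by linarith)
  -- Markov
  have h4 : Tendsto (fun N => ν N {U | ε / 2 ≤ |pressure β (a N ∘ Tuple.sort (a N)) U -
      pressure β (b N ∘ Tuple.sort (b N)) U|}) atTop (𝓝 0) := by
    have h5 : Tendsto (fun N : ℕ => ENNReal.ofReal ((∫ U, |pressure β (a N ∘ Tuple.sort (a N)) U -
      pressure β (b N ∘ Tuple.sort (b N)) U| ∂(ν N)) / (ε / 2))) atTop (𝓝 0) := by
      have := ENNReal.tendsto_ofReal (h1.div_const (ε / 2))
      simpa using this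
    refine tendsto_of_tendsto_of_tendsto_of_le_of_le tendsto_const_nhds h5
      (fun N => zero_le) fun N => ?_
    have := (hν N).prob
    have h6 := integrable_pressure (hν N) hβ (a N ∘ Tuple.sort (a N)) LipschitzWith.id
    have h7 := integrable_pressure (hν N) hβ (b N ∘ Tuple.sort (b N)) LipschitzWith.id
    have h8 := mul_meas_ge_le_integral_of_nonneg (μ := ν N)
      (f := fun U => |pressure β (a N ∘ Tuple.sort (a N)) U -
      pressure β (b N ∘ Tuple.sort (b N)) U|) (Eventually.of_forall fun U => abs_nonneg _)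
      ((h6.sub h7).abs) (ε / 2)
    simp only
    rw [← ofReal_measureReal]
    refine ENNReal.ofReal_le_ofReal ?_
    rw [le_div_iff₀ (by linarith)]
    linarith
  have h5 : Tendsto (fun N => ν N {U | ε / 2 ≤ |pressure β (a N) U - l|} +
      ν N {U | ε / 2 ≤ |pressure β (a N ∘ Tuple.sort (a N)) U -
      pressure β (b N ∘ Tuple.sort (b N)) U|}) atTop (𝓝 0) := by
    simpa using h3.add h4
  refine tendsto_of_tendsto_of_tendsto_of_le_of_le tendsto_const_nhds h5
    (fun N => zero_le) fun N => ?_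
  simp only
  rw [h2 b N, h2 a N]
  refine (measure_mono ?_).trans (measure_union_le _ _)
  intro U hU
  simp only [Set.mem_setOf_eq, Set.mem_union] at hU ⊢
  by_contra hcon
  push Not at hcon
  have h9 := abs_sub_abs_le_abs_sub (pressure β (b N ∘ Tuple.sort (b N)) U - l)
    (pressure β (a N ∘ Tuple.sort (a N)) U - l)
  have h10 : pressure β (b N ∘ Tuple.sort (b N)) U - l - (pressure β (a N ∘ Tuple.sort (a N)) U - l) =
      -(pressure β (a N ∘ Tuple.sort (a N)) U - pressure β (b N ∘ Tuple.sort (b N)) U) := by ring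
  rw [h10, abs_neg] at h9
  linarith [hcon.1, hcon.2]

end Vale.Agent.P166
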