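import Vale.Agent.P166.Defs

namespace Vale.Agent.P166

open MeasureTheory Filter Topology Matrix

variable {N : ℕ}

/-- arrays -/
abbrev Ar (N : ℕ) := Fin N → Fin N → ℝ

/-- left multiplication by a matrix -/
def lm (V : Matrix (Fin N) (Fin N) ℝ) (U : Ar N) : Ar N := Matrix.of.symm (V * Matrix.of U)

/-- right multiplication by a matrix -/
def rm (V : Matrix (Fin N) (Fin N) ℝ) (U : Ar N) : Ar N := Matrix.of.symm (Matrix.of U * V)

/-- product -/
def mm (U V : Ar N) : Ar N := Matrix.of.symm (Matrix.of U * Matrix.of V)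

/-- transpose -/
def tr (U : Ar N) : Ar N := Matrix.of.symm ((Matrix.of U)ᵀ)

/-- being orthogonal -/
def Orth (U : Ar N) : Prop := Matrix.of U ∈ Matrix.orthogonalGroup (Fin N) ℝ

theorem measurable_lm (V : Matrix (Fin N) (Fin N) ℝ) : Measurable (lm V) := by
  have : Continuous (lm V) := by
    refine continuous_pi fun i => continuous_pi fun j => ?_
    show Continuous fun U : Ar N => ∑ k, V i k * U k j
    fun_prop
  exact this.measurable

theorem measurable_rm (V : Matrix (Fin N) (Fin N) ℝ) : Measurable (rm V) := by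
  have : Continuous (rm V) := by
    refine continuous_pi fun i => continuous_pi fun j => ?_
    show Continuous fun U : Ar N => ∑ k, U i k * V k j
    fun_prop
  exact this.measurable

theorem measurable_mm : Measurable fun p : Ar N × Ar N => mm p.1 p.2 := by
  have : Continuous fun p : Ar N × Ar N => mm p.1 p.2 := by
    refine continuous_pi fun i => continuous_pi fun j => ?_
    show Continuous fun p : Ar N × Ar N => ∑ k, p.1 i k * p.2 k j
    fun_prop
  exact this.measurable

theorem measurable_tmm : Measurable fun p : Ar N × Ar N => mm (tr p.1) p.2 := by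
  have : Continuous fun p : Ar N × Ar N => mm (tr p.1) p.2 := by
    refine continuous_pi fun i => continuous_pi fun j => ?_
    show Continuous fun p : Ar N × Ar N => ∑ k, p.1 k i * p.2 k j
    fun_prop
  exact this.measurable

theorem measurable_tr : Measurable (tr (N := N)) := by
  have : Continuous (tr (N := N)) := by
    refine continuous_pi fun i => continuous_pi fun j => ?_
    show Continuous fun U : Ar N => U j i
    fun_prop
  exact this.measurable

theorem orth_tr_mem {U : Ar N} (h : Orth U) : (Matrix.of U)ᵀ ∈ Matrix.orthogonalGroup (Fin N) ℝ := by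
  rw [Matrix.mem_orthogonalGroup_iff]
  have := (Matrix.mem_orthogonalGroup_iff' (A := Matrix.of U)).1 h
  simpa [Matrix.star_eq_conjTranspose] using this

theorem map_lm {ν : Measure (Ar N)} (hν : IsHaar N ν) {V : Matrix (Fin N) (Fin N) ℝ}
    (hV : V ∈ Matrix.orthogonalGroup (Fin N) ℝ) : ν.map (lm V) = ν := hν.inv V hV

theorem lint_lm {ν : Measure (Ar N)} (hν : IsHaar N ν) {V : Matrix (Fin N) (Fin N) ℝ}
    (hV : V ∈ Matrix.orthogonalGroup (Fin N) ℝ) {f : Ar N → ENNReal} (hf : Measurable f) :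
    ∫⁻ U, f (lm V U) ∂ν = ∫⁻ U, f U ∂ν := by
  conv_rhs => rw [← map_lm hν hV]
  rw [lintegral_map hf (measurable_lm V)]

theorem mm_tr (U V : Ar N) : mm (tr V) U = lm ((Matrix.of V)ᵀ) U := rfl

theorem tr_lm (U V : Ar N) : tr (lm ((Matrix.of U)ᵀ) V) = mm (tr V) U := by
  show Matrix.of.symm ((Matrix.of U)ᵀ * Matrix.of V)ᵀ =
    Matrix.of.symm ((Matrix.of V)ᵀ * Matrix.of U)
  rw [Matrix.transpose_mul, Matrix.transpose_transpose]

theorem haar_aux1 {ν : Measure (Ar N)} (hν : IsHaar N ν)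
    {f : Ar N → ENNReal} (hf : Measurable f) {V : Ar N} (hV : Orth V) :
    ∫⁻ U, f (mm (tr V) U) ∂ν = ∫⁻ U, f U ∂ν := by
  simp only [mm_tr]
  exact lint_lm hν (orth_tr_mem hV) hf

theorem haar_aux2 {ν : Measure (Ar N)} (hν : IsHaar N ν)
    {f : Ar N → ENNReal} (hf : Measurable f) {U : Ar N} (hU : Orth U) :
    ∫⁻ V, f (mm (tr V) U) ∂ν = ∫⁻ V, f (tr V) ∂ν := by
  have h3 := lint_lm hν (orth_tr_mem hU) (hf.comp measurable_tr)
  simp only [Function.comp, tr_lm] at h3
  exact h3

theorem haar_transpose {ν ν' : Measure (Ar N)} (hν : IsHaar N ν) (hν' : IsHaar N ν') :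
    ν = ν'.map tr := by
  have i1 := hν.prob
  have i2 := hν'.prob
  refine Measure.ext_of_lintegral _ fun f hf => ?_
  rw [lintegral_map hf measurable_tr]
  have hm : Measurable fun p : Ar N × Ar N => f (mm (tr p.1) p.2) :=
    hf.comp measurable_tmm
  have h1 : ∫⁻ V, ∫⁻ U, f (mm (tr V) U) ∂ν ∂ν' = ∫⁻ U, f U ∂ν := by
    have h : ∀ᵐ V ∂ν', ∫⁻ U, f (mm (tr V) U) ∂ν = ∫⁻ U, f U ∂ν := by
      filter_upwards [hν'.orth] with V hV using haar_aux1 hν hf hV
    rw [lintegral_congr_ae h, lintegral_const, measure_univ, mul_one]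
  have h2 : ∫⁻ U, ∫⁻ V, f (mm (tr V) U) ∂ν' ∂ν = ∫⁻ V, f (tr V) ∂ν' := by
    have h : ∀ᵐ U ∂ν, ∫⁻ V, f (mm (tr V) U) ∂ν' = ∫⁻ V, f (tr V) ∂ν' := by
      filter_upwards [hν.orth] with U hU using haar_aux2 hν' hf hU
    rw [lintegral_congr_ae h, lintegral_const, measure_univ, mul_one]
  have h3 : ∫⁻ V, ∫⁻ U, f (mm (tr V) U) ∂ν ∂ν' = ∫⁻ U, ∫⁻ V, f (mm (tr V) U) ∂ν' ∂ν :=
    lintegral_lintegral_swap (f := fun V U => f (mm (tr V) U)) hm.aemeasurable
  exact h1.symm.trans (h3.trans h2)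

theorem haar_unique {ν ν' : Measure (Ar N)} (hν : IsHaar N ν) (hν' : IsHaar N ν') : ν = ν' := by
  rw [haar_transpose hν hν', ← haar_transpose hν' hν']

theorem map_rm {ν : Measure (Ar N)} (hν : IsHaar N ν) {V : Matrix (Fin N) (Fin N) ℝ}
    (hV : V ∈ Matrix.orthogonalGroup (Fin N) ℝ) : ν.map (rm V) = ν := by
  have ht := haar_transpose hν hν
  have hVt : Vᵀ ∈ Matrix.orthogonalGroup (Fin N) ℝ := orth_tr_mem (U := Matrix.of.symm V) hV
  calc ν.map (rm V) = (ν.map tr).map (rm V) := by rw [← ht]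
    _ = ν.map (rm V ∘ tr) := Measure.map_map (measurable_rm V) measurable_tr
    _ = ν.map (tr ∘ lm Vᵀ) := by
        congr 1
        funext U
        show Matrix.of.symm ((Matrix.of U)ᵀ * V) = Matrix.of.symm (Vᵀ * Matrix.of U)ᵀ
        rw [Matrix.transpose_mul, Matrix.transpose_transpose]
    _ = (ν.map (lm Vᵀ)).map tr := (Measure.map_map measurable_tr (measurable_lm _)).symm
    _ = ν := by rw [map_lm hν hVt, ← ht]

theorem orth_mm {U V : Ar N} (hU : Orth U) (hV : Orth V) : Orth (mm U V) :=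
  (Matrix.orthogonalGroup (Fin N) ℝ).mul_mem hU hV

end Vale.Agent.P166
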