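import Vale.Agent.P166.Moment
import Vale.Agent.P166.Haar
import Vale.Agent.P166.Core

/-! P166: flipping one sign between two Haar matrices changes the pressure by `O(1/N)` in `L²` -/

namespace Vale.Agent.P166

open MeasureTheory Filter Topology Matrix

namespace Flip

variable {N : ℕ}

/-- the `k`-th column -/
def col (k : Fin N) (h : Ar N) : Fin N → ℝ := fun i => h i k

/-- the array reflected in the `k`-th column of `h` -/
noncomputable def rf (k : Fin N) (h V : Ar N) : Ar N := lm (Mom.rfl' 2 (col k h)) V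

theorem rfl_entry (k : Fin N) (h : Ar N) (i l : Fin N) :
    (Mom.rfl' 2 (col k h)) i l = (1 : Matrix (Fin N) (Fin N) ℝ) i l - 2 * (h i k * h l k) := rfl

theorem measurable_rf (k : Fin N) : Measurable fun p : Ar N × Ar N => rf k p.1 p.2 := by
  have : Continuous fun p : Ar N × Ar N => rf k p.1 p.2 := by
    refine continuous_pi fun i => continuous_pi fun j => ?_
    show Continuous fun p : Ar N × Ar N => ∑ l, (Mom.rfl' 2 (col k p.1)) i l * p.2 l j
    simp only [rfl_entry]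
    fun_prop
  exact this.measurable

theorem col_unit {h : Ar N} (hh : Orth h) (k : Fin N) : (col k h) ⬝ᵥ (col k h) = 1 := by
  have h1 : (Matrix.of h)ᵀ * Matrix.of h = 1 := (Matrix.mem_orthogonalGroup_iff' _ _).1 hh
  have h2 := congrFun (congrFun h1 k) k
  simpa [Matrix.mul_apply, dotProduct, col] using h2

theorem mm_flip {h : Ar N} (hh : Orth h) (k : Fin N) (U : Ar N) :
    mm h (lm (Matrix.diagonal fun i => if i = k then (-1 : ℝ) else 1) U) = rf k h (mm h U) := by
  have h1 : (Matrix.of h)ᵀ * Matrix.of h = 1 := (Matrix.mem_orthogonalGroup_iff' _ _).1 hh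
  have key : Matrix.of h * (Matrix.diagonal fun i => if i = k then (-1 : ℝ) else 1) =
      Mom.rfl' 2 (col k h) * Matrix.of h := by
    unfold Mom.rfl'
    rw [Matrix.sub_mul, Matrix.one_mul, Matrix.smul_mul]
    ext i j
    have h2 : ∑ l, h l k * h l j = (1 : Matrix (Fin N) (Fin N) ℝ) k j := by
      have := congrFun (congrFun h1 k) j
      simpa [Matrix.mul_apply] using this
    have h3 : (Matrix.vecMulVec (col k h) (col k h) * Matrix.of h) i j =
        h i k * (1 : Matrix (Fin N) (Fin N) ℝ) k j := by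
      rw [← h2, Finset.mul_sum, Matrix.mul_apply]
      refine Finset.sum_congr rfl fun l _ => ?_
      simp only [Matrix.vecMulVec_apply, col, Matrix.of_apply]
      ring
    rw [Matrix.mul_diagonal, Matrix.sub_apply, Matrix.smul_apply, h3, Matrix.one_apply,
      Matrix.of_apply]
    by_cases hj : j = k
    · subst hj
      simp
      ring
    · simp [hj, Ne.symm hj]
  show Matrix.of.symm (Matrix.of h * (_ * Matrix.of U)) =
    Matrix.of.symm (Mom.rfl' 2 (col k h) * (Matrix.of h * Matrix.of U))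
  rw [← Matrix.mul_assoc, ← Matrix.mul_assoc, key]

theorem rfl_mem' {h : Ar N} (hh : Orth h) (k : Fin N) :
    Mom.rfl' 2 (col k h) ∈ Matrix.orthogonalGroup (Fin N) ℝ :=
  Mom.rfl_mem (by rw [col_unit hh]; norm_num)

theorem rfl_symm (c : ℝ) (w : Fin N → ℝ) : (Mom.rfl' c w)ᵀ = Mom.rfl' c w := by
  unfold Mom.rfl'
  ext i k
  simp [Matrix.vecMulVec_apply, mul_comm, Matrix.one_apply, eq_comm]

theorem rf_rf {h : Ar N} (hh : Orth h) (k : Fin N) (V : Ar N) : rf k h (rf k h V) = V := by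
  have h1 := (Matrix.mem_orthogonalGroup_iff _ _).1 (rfl_mem' hh k)
  rw [rfl_symm] at h1
  show Matrix.of.symm (Mom.rfl' 2 (col k h) * (Mom.rfl' 2 (col k h) * Matrix.of V)) = V
  rw [← Matrix.mul_assoc, h1, Matrix.one_mul]
  rfl

/-- mean square energy change -/
noncomputable def G (β : ℝ) (lam : Fin N → ℝ) (k : Fin N) (h V : Ar N) : ℝ :=
  gm (spins N) (en β lam V) (fun σ => (en β lam (rf k h V) σ - en β lam V σ) ^ 2)

theorem gm_sq_le (E X : (Fin N → ℝ) → ℝ) :
    (gm (spins N) E X) ^ 2 ≤ gm (spins N) E (fun s => X s ^ 2) := by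
  have hZ := Zf_pos (S := spins N) spins_nonempty E
  unfold gm
  rw [div_pow, div_le_div_iff₀ (by positivity) hZ]
  have := Finset.sum_sq_le_sum_mul_sum_of_sq_le_mul (spins N)
    (r := fun s => Real.exp (E s) * X s) (f := fun s => Real.exp (E s))
    (g := fun s => Real.exp (E s) * X s ^ 2) (fun s _ => by positivity)
    (fun s _ => by positivity) (fun s _ => le_of_eq (by ring))
  change _ ≤ Zf (spins N) E * _ at this
  calc (∑ s ∈ spins N, Real.exp (E s) * X s) ^ 2 * Zf (spins N) E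
      ≤ (Zf (spins N) E * ∑ s ∈ spins N, Real.exp (E s) * X s ^ 2) * Zf (spins N) E :=
        mul_le_mul_of_nonneg_right this hZ.le
    _ = _ := by ring

theorem diff_sq_le (β : ℝ) (lam : Fin N → ℝ) {h : Ar N} (hh : Orth h) (k : Fin N) (V : Ar N) :
    (pressure β lam (rf k h V) - pressure β lam V) ^ 2 ≤
      1 / (N : ℝ) ^ 2 * (G β lam k h (rf k h V) + G β lam k h V) := by
  set E := en β lam V with hE
  set E' := en β lam (rf k h V) with hE'
  have h1 := log_sub_le (S := spins N) spins_nonempty E' E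
  have h2 := log_sub_le (S := spins N) spins_nonempty E E'
  have g1 : (gm (spins N) E' (fun s => E' s - E s)) ^ 2 ≤ G β lam k h (rf k h V) := by
    refine (gm_sq_le _ _).trans (le_of_eq ?_)
    unfold G
    rw [rf_rf hh]
    congr 1
    funext σ
    ring
  have g2 : (gm (spins N) E (fun s => E s - E' s)) ^ 2 ≤ G β lam k h V := by
    refine (gm_sq_le _ _).trans (le_of_eq ?_)
    unfold G
    congr 1
    funext σ
    ring
  set a := Real.log (Zf (spins N) E') - Real.log (Zf (spins N) E) with ha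
  have h3 : a ^ 2 ≤ G β lam k h (rf k h V) + G β lam k h V := by
    rcases le_total 0 a with h0 | h0
    · have := pow_le_pow_left₀ h0 h1 2
      nlinarith [sq_nonneg (gm (spins N) E (fun s => E s - E' s))]
    · have h4 : -a ≤ gm (spins N) E (fun s => E s - E' s) := by linarith
      have := pow_le_pow_left₀ (by linarith : 0 ≤ -a) h4 2
      nlinarith [sq_nonneg (gm (spins N) E' (fun s => E' s - E s))]
  have h5 : pressure β lam (rf k h V) - pressure β lam V = 1 / N * a := by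
    rw [pressure_eq, pressure_eq, ha]
    ring
  rw [h5, mul_pow, div_pow, one_pow]
  exact mul_le_mul_of_nonneg_left h3 (by positivity)

theorem G_nonneg (β : ℝ) (lam : Fin N → ℝ) (k : Fin N) (h V : Ar N) : 0 ≤ G β lam k h V :=
  div_nonneg (Finset.sum_nonneg fun _ _ => mul_nonneg (Real.exp_pos _).le (sq_nonneg _))
    (Zf_pos spins_nonempty _).le

theorem measurable_den (β : ℝ) (lam : Fin N → ℝ) (k : Fin N) (σ : Fin N → ℝ) :
    Measurable fun p : Ar N × Ar N => (en β lam (rf k p.1 p.2) σ - en β lam p.2 σ) ^ 2 :=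
  (((measurable_en β lam σ).comp (measurable_rf k)).sub
    ((measurable_en β lam σ).comp measurable_snd)).pow_const 2

theorem measurable_G (β : ℝ) (lam : Fin N → ℝ) (k : Fin N) :
    Measurable fun p : Ar N × Ar N => G β lam k p.1 p.2 := by
  unfold G gm Zf
  have he : ∀ σ, Measurable fun p : Ar N × Ar N => Real.exp (en β lam p.2 σ) := fun σ =>
    ((measurable_en β lam σ).comp measurable_snd).exp
  exact (Finset.measurable_sum _ fun σ _ => (he σ).mul (measurable_den β lam k σ)).div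
    (Finset.measurable_sum _ fun σ _ => he σ)

theorem sum_aux (lam x v : Fin N → ℝ) (c : ℝ) :
    ∑ i, (lam i * (x i - 2 * c * v i) ^ 2 - lam i * x i ^ 2) =
      -(4 * c) * ∑ i, v i * (lam i * x i) + 4 * c ^ 2 * ∑ i, lam i * v i ^ 2 := by
  rw [Finset.mul_sum, Finset.mul_sum, ← Finset.sum_add_distrib]
  refine Finset.sum_congr rfl fun i _ => ?_
  ring

theorem den_eq (β : ℝ) (lam : Fin N → ℝ) (k : Fin N) (h V : Ar N) (σ : Fin N → ℝ) :
    en β lam (rf k h V) σ - en β lam V σ =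
      2 * β * (-((Matrix.of (tr h) *ᵥ (Matrix.of V *ᵥ σ)) k *
        (Matrix.of (tr h) *ᵥ (fun i => lam i * (Matrix.of V *ᵥ σ) i)) k) +
        (Matrix.of (tr h) *ᵥ (Matrix.of V *ᵥ σ)) k ^ 2 * ∑ i, lam i * (h i k) ^ 2) := by
  set x := Matrix.of V *ᵥ σ with hx
  have hc : ∀ y : Fin N → ℝ, (Matrix.of (tr h) *ᵥ y) k = ∑ i, h i k * y i := fun y => rfl
  have h1 : ∀ i, (Matrix.of (rf k h V) *ᵥ σ) i = x i - 2 * (∑ l, h l k * x l) * h i k := by
    intro i
    have : Matrix.of (rf k h V) *ᵥ σ = Mom.rfl' 2 (col k h) *ᵥ x := by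
      rw [hx, Matrix.mulVec_mulVec]
      rfl
    rw [this, Mom.rfl_mulVec]
    rfl
  unfold en sq
  simp only [h1, ← hx, hc]
  rw [← mul_sub, ← Finset.sum_sub_distrib, sum_aux lam x (fun i => h i k)]
  ring

theorem den_bound {β L : ℝ} (hL0 : 0 < L) {lam : Fin N → ℝ} (hL : ∀ i, |lam i| ≤ L)
    (k : Fin N) {h : Ar N} (hh : Orth h) (V : Ar N) (σ : Fin N → ℝ) :
    (en β lam (rf k h V) σ - en β lam V σ) ^ 2 ≤
      12 * β ^ 2 * L ^ 2 * ((Matrix.of (tr h) *ᵥ (Matrix.of V *ᵥ σ)) k) ^ 4 +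
      4 * β ^ 2 / L ^ 2 *
        ((Matrix.of (tr h) *ᵥ (fun i => lam i * (Matrix.of V *ᵥ σ) i)) k) ^ 4 := by
  rw [den_eq]
  set c := (Matrix.of (tr h) *ᵥ (Matrix.of V *ᵥ σ)) k
  set b := (Matrix.of (tr h) *ᵥ (fun i => lam i * (Matrix.of V *ᵥ σ) i)) k
  set e := ∑ i, lam i * (h i k) ^ 2 with he
  have hu : ∑ i, (h i k) ^ 2 = 1 := by
    have h7 := col_unit hh k
    simp only [pow_two]
    exact h7
  have he2 : e ^ 2 ≤ L ^ 2 := by
    rw [← sq_abs e]
    refine pow_le_pow_left₀ (abs_nonneg _) ?_ 2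
    calc |e| ≤ ∑ i, |lam i * (h i k) ^ 2| := Finset.abs_sum_le_sum_abs _ _
      _ ≤ ∑ i, L * (h i k) ^ 2 := Finset.sum_le_sum fun i _ => by
          rw [abs_mul, abs_of_nonneg (sq_nonneg (h i k))]
          exact mul_le_mul_of_nonneg_right (hL i) (sq_nonneg _)
      _ = L := by rw [← Finset.mul_sum, hu, mul_one]
  have h1 : (2 * β * (-(c * b) + c ^ 2 * e)) ^ 2 ≤ 8 * β ^ 2 * (c ^ 2 * b ^ 2 + c ^ 4 * e ^ 2) := by
    have : 0 ≤ β ^ 2 * (c * b + c ^ 2 * e) ^ 2 := by positivity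
    nlinarith [this]
  have h2 : c ^ 2 * b ^ 2 ≤ 1 / 2 * (L ^ 2 * c ^ 4 + b ^ 4 / L ^ 2) := by
    have h3 : 0 ≤ (L * c ^ 2 - b ^ 2 / L) ^ 2 := sq_nonneg _
    have h4 : (L * c ^ 2 - b ^ 2 / L) ^ 2 = L ^ 2 * c ^ 4 - 2 * (c ^ 2 * b ^ 2) + b ^ 4 / L ^ 2 := by
      field_simp
      ring
    rw [h4] at h3
    linarith
  have h5 : c ^ 4 * e ^ 2 ≤ c ^ 4 * L ^ 2 := mul_le_mul_of_nonneg_left he2 (by positivity)
  have h6 : 8 * β ^ 2 * (c ^ 2 * b ^ 2 + c ^ 4 * e ^ 2) ≤
      8 * β ^ 2 * (1 / 2 * (L ^ 2 * c ^ 4 + b ^ 4 / L ^ 2) + c ^ 4 * L ^ 2) :=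
    mul_le_mul_of_nonneg_left (add_le_add h2 h5) (by positivity)
  refine h1.trans (h6.trans (le_of_eq ?_))
  ring

theorem int_tr {ν : Measure (Ar N)} (hν : IsHaar N ν) (x : Fin N → ℝ) (k : Fin N) :
    ∫ h, ((Matrix.of (tr h) *ᵥ x) k) ^ 4 ∂ν = ∫ h, ((Matrix.of h *ᵥ x) k) ^ 4 ∂ν := by
  have ht := haar_transpose hν hν
  conv_rhs => rw [ht]
  rw [integral_map (f := fun h : Ar N => ((Matrix.of h *ᵥ x) k) ^ 4) measurable_tr.aemeasurable]
  exact ((measurable_pi_apply k).comp (Mom.mv_meas x)).pow_const 4 |>.aestronglyMeasurable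

theorem integ_tr {ν : Measure (Ar N)} (hν : IsHaar N ν) (x : Fin N → ℝ) (k : Fin N) :
    Integrable (fun h => ((Matrix.of (tr h) *ᵥ x) k) ^ 4) ν := by
  have ht := haar_transpose hν hν
  have h1 : Integrable (fun h : Ar N => ((Matrix.of h *ᵥ x) k) ^ 4) ν := by
    simpa using Mom.integ hν x k k 4 0
  rw [ht] at h1
  exact h1.comp_measurable measurable_tr

theorem fix_bound {ν : Measure (Ar N)} (hν : IsHaar N ν) (hN : 2 ≤ N) {β L : ℝ}
    (hL0 : 0 < L) {lam : Fin N → ℝ} (hL : ∀ i, |lam i| ≤ L) (k : Fin N) {V : Ar N}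
    (hV : Orth V) {σ : Fin N → ℝ} (hσ : σ ∈ spins N) :
    ∫⁻ h, ENNReal.ofReal ((en β lam (rf k h V) σ - en β lam V σ) ^ 2) ∂ν ≤
      ENNReal.ofReal (96 * β ^ 2 * L ^ 2) := by
  set x := Matrix.of V *ᵥ σ with hx
  have hN0 : (0 : ℝ) < N := by
    have : 0 < N := by omega
    exact_mod_cast this
  have hx2 : ∑ i, x i ^ 2 = N := sum_sq hV hσ
  have hy2 : ∑ i, (lam i * x i) ^ 2 ≤ L ^ 2 * N := by
    rw [← hx2, Finset.mul_sum]
    refine Finset.sum_le_sum fun i _ => ?_
    rw [mul_pow]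
    refine mul_le_mul_of_nonneg_right ?_ (sq_nonneg _)
    rw [← sq_abs (lam i)]
    exact pow_le_pow_left₀ (abs_nonneg _) (hL i) 2
  have m1 : ∫ h, ((Matrix.of (tr h) *ᵥ x) k) ^ 4 ∂ν ≤ 6 := by
    rw [int_tr hν]
    refine (fourth_moment hν hN x k).trans (le_of_eq ?_)
    rw [hx2]
    field_simp
  have m2 : ∫ h, ((Matrix.of (tr h) *ᵥ (fun i => lam i * x i)) k) ^ 4 ∂ν ≤ 6 * L ^ 4 := by
    rw [int_tr hν]
    refine (fourth_moment hν hN _ k).trans ?_
    rw [div_le_iff₀ (by positivity)]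
    have h0 : 0 ≤ ∑ i, (lam i * x i) ^ 2 := Finset.sum_nonneg fun _ _ => sq_nonneg _
    have := pow_le_pow_left₀ h0 hy2 2
    calc 6 * (∑ i, (lam i * x i) ^ 2) ^ 2 ≤ 6 * (L ^ 2 * N) ^ 2 := by linarith
      _ = _ := by ring
  have i1 := (integ_tr hν x k).const_mul (12 * β ^ 2 * L ^ 2)
  have i2 := (integ_tr hν (fun i => lam i * x i) k).const_mul (4 * β ^ 2 / L ^ 2)
  calc ∫⁻ h, ENNReal.ofReal ((en β lam (rf k h V) σ - en β lam V σ) ^ 2) ∂ν
      ≤ ∫⁻ h, ENNReal.ofReal (12 * β ^ 2 * L ^ 2 * ((Matrix.of (tr h) *ᵥ x) k) ^ 4 +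
          4 * β ^ 2 / L ^ 2 * ((Matrix.of (tr h) *ᵥ (fun i => lam i * x i)) k) ^ 4) ∂ν := by
        refine lintegral_mono_ae ?_
        filter_upwards [hν.orth] with h hh
        exact ENNReal.ofReal_le_ofReal (den_bound hL0 hL k hh V σ)
    _ = ENNReal.ofReal (∫ h, (12 * β ^ 2 * L ^ 2 * ((Matrix.of (tr h) *ᵥ x) k) ^ 4 +
          4 * β ^ 2 / L ^ 2 * ((Matrix.of (tr h) *ᵥ (fun i => lam i * x i)) k) ^ 4) ∂ν) := by
        refine (ofReal_integral_eq_lintegral_ofReal (i1.add i2) ?_).symm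
        exact ae_of_all _ fun h => by
          simp only [Pi.zero_apply, Pi.add_apply]
          positivity
    _ ≤ ENNReal.ofReal (96 * β ^ 2 * L ^ 2) := by
        refine ENNReal.ofReal_le_ofReal ?_
        rw [integral_add i1 i2, integral_const_mul, integral_const_mul]
        have e1 : 12 * β ^ 2 * L ^ 2 * ∫ h, ((Matrix.of (tr h) *ᵥ x) k) ^ 4 ∂ν ≤
            12 * β ^ 2 * L ^ 2 * 6 := mul_le_mul_of_nonneg_left m1 (by positivity)
        have e2 : 4 * β ^ 2 / L ^ 2 *
            ∫ h, ((Matrix.of (tr h) *ᵥ (fun i => lam i * x i)) k) ^ 4 ∂ν ≤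
            4 * β ^ 2 / L ^ 2 * (6 * L ^ 4) := mul_le_mul_of_nonneg_left m2 (by positivity)
        have e3 : 4 * β ^ 2 / L ^ 2 * (6 * L ^ 4) = 24 * β ^ 2 * L ^ 2 := by
          field_simp
          ring
        linarith

theorem G_bound {ν : Measure (Ar N)} (hν : IsHaar N ν) (hN : 2 ≤ N) {β L : ℝ}
    (hL0 : 0 < L) {lam : Fin N → ℝ} (hL : ∀ i, |lam i| ≤ L) (k : Fin N) {V : Ar N}
    (hV : Orth V) :
    ∫⁻ h, ENNReal.ofReal (G β lam k h V) ∂ν ≤ ENNReal.ofReal (96 * β ^ 2 * L ^ 2) := by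
  set E := en β lam V with hE
  have hZ := Zf_pos (S := spins N) spins_nonempty E
  have h1 : ∀ h, ENNReal.ofReal (G β lam k h V) = ∑ σ ∈ spins N,
      ENNReal.ofReal (Real.exp (E σ) / Zf (spins N) E) *
        ENNReal.ofReal ((en β lam (rf k h V) σ - en β lam V σ) ^ 2) := by
    intro h
    have : G β lam k h V = ∑ σ ∈ spins N, Real.exp (E σ) / Zf (spins N) E *
        (en β lam (rf k h V) σ - en β lam V σ) ^ 2 := by
      unfold G gm
      rw [Finset.sum_div]
      refine Finset.sum_congr rfl fun σ _ => ?_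
      ring
    rw [this, ENNReal.ofReal_sum_of_nonneg fun σ _ => by positivity]
    refine Finset.sum_congr rfl fun σ _ => ?_
    rw [ENNReal.ofReal_mul (by positivity)]
  have hmeas : ∀ σ, Measurable fun h : Ar N =>
      ENNReal.ofReal ((en β lam (rf k h V) σ - en β lam V σ) ^ 2) := fun σ =>
    ((measurable_den β lam k σ).comp (measurable_id.prodMk measurable_const)).ennreal_ofReal
  simp only [h1]
  rw [lintegral_finsetSum _ fun σ _ => (hmeas σ).const_mul _]
  simp only [lintegral_const_mul _ (hmeas _)]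
  calc ∑ σ ∈ spins N, ENNReal.ofReal (Real.exp (E σ) / Zf (spins N) E) *
        ∫⁻ h, ENNReal.ofReal ((en β lam (rf k h V) σ - en β lam V σ) ^ 2) ∂ν
      ≤ ∑ σ ∈ spins N, ENNReal.ofReal (Real.exp (E σ) / Zf (spins N) E) *
        ENNReal.ofReal (96 * β ^ 2 * L ^ 2) := by
        refine Finset.sum_le_sum fun σ hσ => ?_
        gcongr
        exact fix_bound hν hN hL0 hL k hV hσ
    _ = ENNReal.ofReal (96 * β ^ 2 * L ^ 2) := by
        rw [← Finset.sum_mul, ← ENNReal.ofReal_sum_of_nonneg fun σ _ => by positivity,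
          ← Finset.sum_div]
        have : (∑ i ∈ spins N, Real.exp (E i)) / Zf (spins N) E = 1 := div_self hZ.ne'
        rw [this]
        simp

theorem main_pos {ν : Measure (Ar N)} (hν : IsHaar N ν) (hN : 2 ≤ N) {β L : ℝ}
    (hL0 : 0 < L) {lam : Fin N → ℝ} (hL : ∀ i, |lam i| ≤ L) (k : Fin N) :
    ∫⁻ p, ENNReal.ofReal ((pressure β lam (mm p.1 (lm (Matrix.diagonal fun i =>
      if i = k then (-1 : ℝ) else 1) p.2)) - pressure β lam (mm p.1 p.2)) ^ 2) ∂(ν.prod ν) ≤
      ENNReal.ofReal (192 * β ^ 2 * L ^ 2 / N ^ 2) := by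
  have := hν.prob
  have hmf : Measurable fun q : Ar N × Ar N =>
      (pressure β lam (rf k q.1 q.2) - pressure β lam q.2) ^ 2 :=
    (((measurable_pressure β lam).comp (measurable_rf k)).sub
      ((measurable_pressure β lam).comp measurable_snd)).pow_const 2
  have hm1 : Measurable fun p : Ar N × Ar N => ENNReal.ofReal ((pressure β lam (mm p.1
      (lm (Matrix.diagonal fun i => if i = k then (-1 : ℝ) else 1) p.2)) -
      pressure β lam (mm p.1 p.2)) ^ 2) := by
    refine Measurable.ennreal_ofReal (Measurable.pow_const (Measurable.sub ?_ ?_) 2)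
    · exact (measurable_pressure β lam).comp (measurable_mm.comp
        (measurable_fst.prodMk ((measurable_lm _).comp measurable_snd)))
    · exact (measurable_pressure β lam).comp measurable_mm
  rw [lintegral_prod _ hm1.aemeasurable]
  have step1 : ∀ᵐ h ∂ν, ∫⁻ U, ENNReal.ofReal ((pressure β lam (mm h (lm (Matrix.diagonal fun i =>
      if i = k then (-1 : ℝ) else 1) U)) - pressure β lam (mm h U)) ^ 2) ∂ν ≤
      ENNReal.ofReal (2 / (N : ℝ) ^ 2) * ∫⁻ V, ENNReal.ofReal (G β lam k h V) ∂ν := by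
    filter_upwards [hν.orth] with h hh
    have hmG : Measurable fun V : Ar N => ENNReal.ofReal (G β lam k h V) :=
      ((measurable_G β lam k).comp (measurable_const.prodMk measurable_id)).ennreal_ofReal
    have hmF : Measurable fun V : Ar N =>
        ENNReal.ofReal ((pressure β lam (rf k h V) - pressure β lam V) ^ 2) :=
      (hmf.comp (measurable_const.prodMk measurable_id)).ennreal_ofReal
    have e1 : ∫⁻ U, ENNReal.ofReal ((pressure β lam (mm h (lm (Matrix.diagonal fun i =>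
        if i = k then (-1 : ℝ) else 1) U)) - pressure β lam (mm h U)) ^ 2) ∂ν =
        ∫⁻ V, ENNReal.ofReal ((pressure β lam (rf k h V) - pressure β lam V) ^ 2) ∂ν := by
      rw [← lint_lm hν (V := Matrix.of h) hh hmF]
      refine lintegral_congr fun U => ?_
      rw [mm_flip hh]
      rfl
    rw [e1]
    calc ∫⁻ V, ENNReal.ofReal ((pressure β lam (rf k h V) - pressure β lam V) ^ 2) ∂ν
        ≤ ∫⁻ V, ENNReal.ofReal (1 / (N : ℝ) ^ 2) * (ENNReal.ofReal (G β lam k h (rf k h V)) +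
            ENNReal.ofReal (G β lam k h V)) ∂ν := by
          refine lintegral_mono fun V => ?_
          rw [← ENNReal.ofReal_add (G_nonneg _ _ _ _ _) (G_nonneg _ _ _ _ _),
            ← ENNReal.ofReal_mul (by positivity)]
          exact ENNReal.ofReal_le_ofReal (diff_sq_le β lam hh k V)
      _ = ENNReal.ofReal (1 / (N : ℝ) ^ 2) * (∫⁻ V, ENNReal.ofReal (G β lam k h (rf k h V)) ∂ν +
            ∫⁻ V, ENNReal.ofReal (G β lam k h V) ∂ν) := by
          rw [lintegral_const_mul', lintegral_add_right _ hmG]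
          exact ENNReal.ofReal_ne_top
      _ = ENNReal.ofReal (2 / (N : ℝ) ^ 2) * ∫⁻ V, ENNReal.ofReal (G β lam k h V) ∂ν := by
          have e2 : ∫⁻ V, ENNReal.ofReal (G β lam k h (rf k h V)) ∂ν =
              ∫⁻ V, ENNReal.ofReal (G β lam k h V) ∂ν := lint_lm hν (rfl_mem' hh k) hmG
          rw [e2, ← two_mul, ← mul_assoc]
          congr 1
          rw [show (2 : ENNReal) = ENNReal.ofReal 2 by simp, ← ENNReal.ofReal_mul (by positivity)]
          congr 1
          ring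
  calc ∫⁻ h, ∫⁻ U, ENNReal.ofReal ((pressure β lam (mm h (lm (Matrix.diagonal fun i =>
      if i = k then (-1 : ℝ) else 1) U)) - pressure β lam (mm h U)) ^ 2) ∂ν ∂ν
      ≤ ∫⁻ h, ENNReal.ofReal (2 / (N : ℝ) ^ 2) * ∫⁻ V, ENNReal.ofReal (G β lam k h V) ∂ν ∂ν :=
        lintegral_mono_ae step1
    _ = ENNReal.ofReal (2 / (N : ℝ) ^ 2) * ∫⁻ h, ∫⁻ V, ENNReal.ofReal (G β lam k h V) ∂ν ∂ν := by
        rw [lintegral_const_mul' _ _ ENNReal.ofReal_ne_top]
    _ = ENNReal.ofReal (2 / (N : ℝ) ^ 2) * ∫⁻ V, ∫⁻ h, ENNReal.ofReal (G β lam k h V) ∂ν ∂ν := by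
        congr 1
        exact lintegral_lintegral_swap (f := fun h V => ENNReal.ofReal (G β lam k h V))
          (measurable_G β lam k).ennreal_ofReal.aemeasurable
    _ ≤ ENNReal.ofReal (2 / (N : ℝ) ^ 2) * ∫⁻ _V, ENNReal.ofReal (96 * β ^ 2 * L ^ 2) ∂ν := by
        refine mul_le_mul' le_rfl (lintegral_mono_ae ?_)
        filter_upwards [hν.orth] with V hV using G_bound hν hN hL0 hL k hV
    _ = ENNReal.ofReal (192 * β ^ 2 * L ^ 2 / N ^ 2) := by
        rw [lintegral_const, measure_univ, mul_one, ← ENNReal.ofReal_mul (by positivity)]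
        congr 1
        ring

end Flip

open Flip

theorem flip_bound {N : ℕ} {ν : Measure (Fin N → Fin N → ℝ)} (hν : IsHaar N ν) (hN : 2 ≤ N)
    {β L : ℝ} {lam : Fin N → ℝ} (hL : ∀ i, |lam i| ≤ L) (k : Fin N) :
    ∫ p, (pressure β lam (mm p.1 (lm (Matrix.diagonal fun i =>
      if i = k then (-1 : ℝ) else 1) p.2)) - pressure β lam (mm p.1 p.2)) ^ 2 ∂(ν.prod ν) ≤
      200 * β ^ 2 * L ^ 2 / N ^ 2 := by
  have hL0 : 0 ≤ L := (abs_nonneg _).trans (hL k)
  have hm1 : Measurable fun p : Ar N × Ar N => (pressure β lam (mm p.1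
      (lm (Matrix.diagonal fun i => if i = k then (-1 : ℝ) else 1) p.2)) -
      pressure β lam (mm p.1 p.2)) ^ 2 := by
    refine Measurable.pow_const (Measurable.sub ?_ ?_) 2
    · exact (measurable_pressure β lam).comp (measurable_mm.comp
        (measurable_fst.prodMk ((measurable_lm _).comp measurable_snd)))
    · exact (measurable_pressure β lam).comp measurable_mm
  rcases hL0.eq_or_lt with h0 | h0
  · have hl : ∀ i, lam i = 0 := fun i => by
      have := hL i
      rw [← h0] at this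
      exact abs_eq_zero.1 (le_antisymm this (abs_nonneg _))
    have hp : ∀ U V : Ar N, pressure β lam U = pressure β lam V := by
      intro U V
      rw [pressure_eq, pressure_eq]
      have : en β lam U = en β lam V := by
        funext σ
        simp [en, hl]
      rw [this]
    have : ∀ p : Ar N × Ar N, (pressure β lam (mm p.1 (lm (Matrix.diagonal fun i =>
        if i = k then (-1 : ℝ) else 1) p.2)) - pressure β lam (mm p.1 p.2)) ^ 2 = 0 := by
      intro p
      rw [hp _ (mm p.1 p.2)]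
      ring
    simp only [this, integral_zero]
    positivity
  · rw [integral_eq_lintegral_of_nonneg_ae (ae_of_all _ fun p => sq_nonneg _)
      hm1.aestronglyMeasurable]
    refine ENNReal.toReal_le_of_le_ofReal (by positivity) ?_
    refine (main_pos hν hN h0 hL k).trans (ENNReal.ofReal_le_ofReal ?_)
    gcongr
    norm_num

end Vale.Agent.P166
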