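import Vale.Agent.P166.Defs

namespace Vale.Agent.P166

open MeasureTheory Filter Topology Matrix

section gibbs
variable {ι : Type*} (S : Finset ι)

/-- partition function -/
noncomputable def Zf (E : ι → ℝ) : ℝ := ∑ s ∈ S, Real.exp (E s)

/-- Gibbs mean -/
noncomputable def gm (E X : ι → ℝ) : ℝ := (∑ s ∈ S, Real.exp (E s) * X s) / Zf S E

variable {S}

theorem Zf_pos (hS : S.Nonempty) (E : ι → ℝ) : 0 < Zf S E :=
  Finset.sum_pos (fun _ _ => Real.exp_pos _) hS

theorem log_sub_le (hS : S.Nonempty) (E E' : ι → ℝ) :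
    Real.log (Zf S E) - Real.log (Zf S E') ≤ gm S E (fun s => E s - E' s) := by
  have hZ := Zf_pos hS E
  have hZ' := Zf_pos hS E'
  set m := gm S E (fun s => E s - E' s) with hm
  have h1 : Zf S E * m = ∑ s ∈ S, Real.exp (E s) * (E s - E' s) := by
    rw [hm, gm, mul_div_cancel₀ _ hZ.ne']
  -- Z E' ≥ Z E * exp (-m)
  have h2 : Zf S E * Real.exp (-m) ≤ Zf S E' := by
    have h3 : ∀ s ∈ S, Real.exp (-m) * (Real.exp (E s) * (1 + (E' s - E s + m))) ≤
        Real.exp (E' s) := by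
      intro s _
      have h4 : 1 + (E' s - E s + m) ≤ Real.exp (E' s - E s + m) := by
        linarith [Real.add_one_le_exp (E' s - E s + m)]
      calc Real.exp (-m) * (Real.exp (E s) * (1 + (E' s - E s + m)))
          ≤ Real.exp (-m) * (Real.exp (E s) * Real.exp (E' s - E s + m)) := by gcongr
        _ = Real.exp (E' s) := by
            rw [← Real.exp_add, ← Real.exp_add]; congr 1; ring
    have h5 := Finset.sum_le_sum h3
    rw [← Finset.mul_sum] at h5
    have h6 : ∑ s ∈ S, Real.exp (E s) * (1 + (E' s - E s + m)) = Zf S E := by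
      have : ∀ s ∈ S, Real.exp (E s) * (1 + (E' s - E s + m)) =
          Real.exp (E s) * (1 + m) - Real.exp (E s) * (E s - E' s) := fun s _ => by ring
      rw [Finset.sum_congr rfl this, Finset.sum_sub_distrib, ← Finset.sum_mul, ← h1]
      show Zf S E * (1 + m) - _ = _
      ring
    rw [h6] at h5
    change Real.exp (-m) * Zf S E ≤ Zf S E' at h5
    linarith
  have h7 := Real.log_le_log (by positivity) h2
  rw [Real.log_mul hZ.ne' (Real.exp_pos _).ne', Real.log_exp] at h7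
  linarith

theorem Zf_mono {E E' : ι → ℝ} (h : ∀ s ∈ S, E s ≤ E' s) : Zf S E ≤ Zf S E' :=
  Finset.sum_le_sum fun s hs => Real.exp_le_exp.2 (h s hs)

theorem gm_tilt (hS : S.Nonempty) (E D : ι → ℝ) {δ : ℝ} (hδ : 0 ≤ δ) :
    gm S (fun s => E s - δ * D s) D ≤ gm S E D := by
  have hZ := Zf_pos hS E
  have hZ' := Zf_pos hS (fun s => E s - δ * D s)
  unfold gm
  rw [div_le_div_iff₀ hZ' hZ]
  unfold Zf
  rw [Finset.sum_mul_sum, Finset.sum_mul_sum]
  have key : 0 ≤ ∑ s ∈ S, ∑ t ∈ S, (Real.exp (E s) * Real.exp (E t)) *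
      ((D s - D t) * (Real.exp (-(δ * D t)) - Real.exp (-(δ * D s)))) := by
    refine Finset.sum_nonneg fun s _ => Finset.sum_nonneg fun t _ => ?_
    refine mul_nonneg (by positivity) ?_
    rcases le_total (D s) (D t) with h | h
    · have : Real.exp (-(δ * D t)) ≤ Real.exp (-(δ * D s)) :=
        Real.exp_le_exp.2 (by nlinarith)
      nlinarith
    · have : Real.exp (-(δ * D s)) ≤ Real.exp (-(δ * D t)) :=
        Real.exp_le_exp.2 (by nlinarith)
      nlinarith
  have e1 : ∑ s ∈ S, ∑ t ∈ S, (Real.exp (E s) * Real.exp (E t)) *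
      ((D s - D t) * (Real.exp (-(δ * D t)) - Real.exp (-(δ * D s)))) =
      2 * (∑ s ∈ S, ∑ t ∈ S, Real.exp (E s) * D s * Real.exp (E t - δ * D t)) -
      2 * (∑ s ∈ S, ∑ t ∈ S, Real.exp (E s - δ * D s) * D s * Real.exp (E t)) := by
    have hA : ∀ t, Real.exp (E t - δ * D t) = Real.exp (E t) * Real.exp (-(δ * D t)) := by
      intro t; rw [← Real.exp_add]; congr 1
    have hsw : ∑ s ∈ S, ∑ t ∈ S, (Real.exp (E s) * Real.exp (E t)) *
        (D t * Real.exp (-(δ * D t))) = ∑ s ∈ S, ∑ t ∈ S, (Real.exp (E s) * Real.exp (E t)) *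
        (D s * Real.exp (-(δ * D s))) := by
      rw [Finset.sum_comm]
      refine Finset.sum_congr rfl fun s _ => Finset.sum_congr rfl fun t _ => by ring
    have hsw2 : ∑ s ∈ S, ∑ t ∈ S, (Real.exp (E s) * Real.exp (E t)) *
        (D t * Real.exp (-(δ * D s))) = ∑ s ∈ S, ∑ t ∈ S, (Real.exp (E s) * Real.exp (E t)) *
        (D s * Real.exp (-(δ * D t))) := by
      rw [Finset.sum_comm]
      refine Finset.sum_congr rfl fun s _ => Finset.sum_congr rfl fun t _ => by ring
    have h1 : ∑ s ∈ S, ∑ t ∈ S, (Real.exp (E s) * Real.exp (E t)) *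
      ((D s - D t) * (Real.exp (-(δ * D t)) - Real.exp (-(δ * D s)))) =
      ∑ s ∈ S, ∑ t ∈ S, (Real.exp (E s) * Real.exp (E t)) * (D s * Real.exp (-(δ * D t))) -
      ∑ s ∈ S, ∑ t ∈ S, (Real.exp (E s) * Real.exp (E t)) * (D s * Real.exp (-(δ * D s))) -
      ∑ s ∈ S, ∑ t ∈ S, (Real.exp (E s) * Real.exp (E t)) * (D t * Real.exp (-(δ * D t))) +
      ∑ s ∈ S, ∑ t ∈ S, (Real.exp (E s) * Real.exp (E t)) * (D t * Real.exp (-(δ * D s))) := by
      simp only [← Finset.sum_sub_distrib, ← Finset.sum_add_distrib]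
      refine Finset.sum_congr rfl fun s _ => Finset.sum_congr rfl fun t _ => by ring
    rw [h1, hsw, hsw2]
    have h2 : ∑ s ∈ S, ∑ t ∈ S, Real.exp (E s) * D s * Real.exp (E t - δ * D t) =
        ∑ s ∈ S, ∑ t ∈ S, (Real.exp (E s) * Real.exp (E t)) * (D s * Real.exp (-(δ * D t))) := by
      refine Finset.sum_congr rfl fun s _ => Finset.sum_congr rfl fun t _ => ?_
      rw [hA t]; ring
    have h3 : ∑ s ∈ S, ∑ t ∈ S, Real.exp (E s - δ * D s) * D s * Real.exp (E t) =
        ∑ s ∈ S, ∑ t ∈ S, (Real.exp (E s) * Real.exp (E t)) * (D s * Real.exp (-(δ * D s))) := by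
      refine Finset.sum_congr rfl fun s _ => Finset.sum_congr rfl fun t _ => ?_
      rw [hA s]; ring
    rw [h2, h3]; ring
  rw [e1] at key
  linarith

end gibbs

end Vale.Agent.P166
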