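import Mathlib

/-! Linear algebra for orthogonal matrices: an orthogonal matrix is the product of two orthogonal
involutions, and an orthogonal involution is orthogonally diagonalisable with signs. -/

namespace Vale.Agent.P166

open Matrix Module
open scoped InnerProductSpace

theorem invol_diag {N : ℕ} {D : Matrix (Fin N) (Fin N) ℝ}
    (hD : D ∈ Matrix.orthogonalGroup (Fin N) ℝ) (hs : Dᵀ = D) :
    ∃ V ∈ Matrix.orthogonalGroup (Fin N) ℝ, ∃ ε : Fin N → ℝ, (∀ i, ε i = 1 ∨ ε i = -1) ∧
      D = Vᵀ * Matrix.diagonal ε * V := by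
  have hH : D.IsHermitian := by
    rw [Matrix.IsHermitian, Matrix.conjTranspose_eq_transpose_of_trivial, hs]
  have hDD : D * D = 1 := by
    have : D * Dᵀ = 1 := (Matrix.mem_orthogonalGroup_iff (Fin N) ℝ).1 hD
    rwa [hs] at this
  have hU : (hH.eigenvectorUnitary : Matrix (Fin N) (Fin N) ℝ) ∈
      Matrix.orthogonalGroup (Fin N) ℝ := hH.eigenvectorUnitary.2
  refine ⟨(hH.eigenvectorUnitary : Matrix (Fin N) (Fin N) ℝ)ᵀ, ?_, hH.eigenvalues, ?_, ?_⟩
  · rw [Matrix.mem_orthogonalGroup_iff] at hU ⊢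
    have := (Matrix.mem_orthogonalGroup_iff' (Fin N) ℝ).1 hH.eigenvectorUnitary.2
    simpa [Matrix.star_eq_conjTranspose, Matrix.conjTranspose_eq_transpose_of_trivial] using this
  · intro i
    have h1 := hH.mulVec_eigenvectorBasis i
    have h2 : D *ᵥ (D *ᵥ ⇑(hH.eigenvectorBasis i)) = ⇑(hH.eigenvectorBasis i) := by
      rw [Matrix.mulVec_mulVec, hDD, Matrix.one_mulVec]
    rw [h1, Matrix.mulVec_smul, h1, smul_smul] at h2
    have hne : (hH.eigenvectorBasis i) ≠ 0 := by
      intro h0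
      have := hH.eigenvectorBasis.orthonormal.1 i
      rw [h0] at this
      simp at this
    have h3 : (hH.eigenvalues i * hH.eigenvalues i - 1) • (hH.eigenvectorBasis i) = 0 := by
      rw [sub_smul, one_smul, sub_eq_zero]
      ext j
      exact congrFun h2 j
    rcases smul_eq_zero.1 h3 with h | h
    · exact mul_self_eq_one_iff.1 (by linarith)
    · exact absurd h hne
  · have := hH.spectral_theorem
    rw [Unitary.conjStarAlgAut_apply] at this
    rw [Matrix.transpose_transpose]
    conv_lhs => rw [this]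
    rfl

/-- the abstract statement: for a symmetric `T` and an antisymmetric `A` with `T A = A T` and
`A ^ 2 = T ^ 2 - 4` there is a linear symmetric involution commuting with `T` and anticommuting
with `A` -/
theorem exists_conj {E : Type*} [NormedAddCommGroup E] [InnerProductSpace ℝ E]
    [FiniteDimensional ℝ E] (T A : E →ₗ[ℝ] E) (hT : T.IsSymmetric)
    (hA : ∀ x y, ⟪A x, y⟫_ℝ = -⟪x, A y⟫_ℝ) (hTA : ∀ x, T (A x) = A (T x))
    (hAA : ∀ x, A (A x) = T (T x) - (4 : ℝ) • x) :
    ∃ D : E →ₗ[ℝ] E, D.IsSymmetric ∧ (∀ x, D (D x) = x) ∧ (∀ x, D (T x) = T (D x)) ∧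
      (∀ x, D (A x) = -A (D x)) := by
  classical
  let S : Set (Submodule ℝ E) :=
    {F | (∀ x ∈ F, T x ∈ F) ∧ ∀ x ∈ F, ∀ y ∈ F, ⟪A x, y⟫_ℝ = 0}
  have hS : S.Nonempty := ⟨⊥, by
    refine ⟨?_, ?_⟩
    · intro x hx
      rw [Submodule.mem_bot] at hx ⊢
      rw [hx, map_zero]
    · intro x hx y hy
      rw [Submodule.mem_bot] at hx
      rw [hx, map_zero, inner_zero_left]⟩
  obtain ⟨F, hF, hmax⟩ := (inferInstance : WellFoundedGT (Submodule ℝ E)).wf.has_min S hS
  obtain ⟨hFT, hFA⟩ := hF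
  have hskew : ∀ x, ⟪A x, x⟫_ℝ = 0 := by
    intro x
    have h1 := hA x x
    rw [real_inner_comm x (A x)] at h1
    rw [real_inner_comm (A x) x] at h1
    have h2 := real_inner_comm x (A x)
    have h3 := hA x x
    linarith
  set M : Submodule ℝ E := Fᗮ ⊓ (F.map A)ᗮ with hM
  have hMT : ∀ x ∈ M, T x ∈ M := by
    intro x hx
    rw [hM, Submodule.mem_inf, Submodule.mem_orthogonal, Submodule.mem_orthogonal] at hx ⊢
    refine ⟨fun f hf => ?_, fun f hf => ?_⟩
    · rw [← hT f x]
      exact hx.1 _ (hFT f hf)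
    · obtain ⟨f', hf', rfl⟩ := Submodule.mem_map.1 hf
      rw [← hT (A f') x, hTA]
      exact hx.2 _ (Submodule.mem_map_of_mem (hFT f' hf'))
  have hbot : M = ⊥ := by
    by_contra hne
    have : Nontrivial M := Submodule.nontrivial_iff_ne_bot.2 hne
    have hsym := hT.restrict_invariant hMT
    obtain ⟨v, hv⟩ := (LinearMap.IsSymmetric.hasEigenvalue_iSup_of_finiteDimensional
      hsym).exists_hasEigenvector
    have hv0 : (v : E) ≠ 0 := by
      intro h
      exact hv.2 (Subtype.ext h)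
    have hvT := congrArg (fun z : M => (z : E)) hv.apply_eq_smul
    simp only [LinearMap.coe_restrict_apply, SetLike.val_smul] at hvT
    generalize (⨆ x : { x : M // x ≠ 0 }, _ : ℝ) = μ at hvT
    have hvM : (v : E) ∈ Fᗮ ⊓ (F.map A)ᗮ := v.2
    rw [Submodule.mem_inf, Submodule.mem_orthogonal, Submodule.mem_orthogonal] at hvM
    refine hmax (F ⊔ Submodule.span ℝ {(v : E)}) ⟨?_, ?_⟩ ?_
    · intro x hx
      obtain ⟨f, hf, w, hw, rfl⟩ := Submodule.mem_sup.1 hx
      obtain ⟨a, rfl⟩ := Submodule.mem_span_singleton.1 hw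
      rw [map_add, map_smul, hvT]
      refine Submodule.add_mem_sup (hFT f hf) ?_
      exact Submodule.smul_mem _ _ (Submodule.smul_mem _ _ (Submodule.mem_span_singleton_self _))
    · intro x hx y hy
      obtain ⟨f, hf, w, hw, rfl⟩ := Submodule.mem_sup.1 hx
      obtain ⟨a, rfl⟩ := Submodule.mem_span_singleton.1 hw
      obtain ⟨f', hf', w', hw', rfl⟩ := Submodule.mem_sup.1 hy
      obtain ⟨b, rfl⟩ := Submodule.mem_span_singleton.1 hw'
      have e1 := hFA f hf f' hf'
      have e2 : ⟪A f, (v : E)⟫_ℝ = 0 := hvM.2 _ (Submodule.mem_map_of_mem hf)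
      have e3 : ⟪A (v : E), f'⟫_ℝ = 0 := by
        rw [hA, real_inner_comm, hvM.2 _ (Submodule.mem_map_of_mem hf'), neg_zero]
      have e4 := hskew (v : E)
      rw [map_add, map_smul, inner_add_left, inner_add_right, inner_add_right,
        real_inner_smul_left, real_inner_smul_left, real_inner_smul_right, real_inner_smul_right,
        e1, e2, e3, e4]
      ring
    · refine lt_of_le_of_ne le_sup_left ?_
      intro h
      have h1 : (v : E) ∈ F := by
        rw [h]
        exact Submodule.mem_sup_right (Submodule.mem_span_singleton_self _)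
      have h2 := hvM.1 _ h1
      exact hv0 (inner_self_eq_zero.1 h2)
  have htop : F ⊔ F.map A = ⊤ := by
    rw [← Submodule.orthogonal_eq_bot_iff, ← Submodule.inf_orthogonal, ← hM, hbot]
  have hdec : ∀ x : E, ∃ f ∈ F, ∃ f' ∈ F, x = f + A f' := by
    intro x
    have hx : x ∈ F ⊔ F.map A := by rw [htop]; trivial
    obtain ⟨f, hf, w, hw, rfl⟩ := Submodule.mem_sup.1 hx
    obtain ⟨f', hf', rfl⟩ := Submodule.mem_map.1 hw
    exact ⟨f, hf, f', hf', rfl⟩
  have hperp : ∀ f ∈ F, A f ∈ Fᗮ := by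
    intro f hf
    rw [Submodule.mem_orthogonal]
    intro u hu
    rw [real_inner_comm]
    exact hFA f hf u hu
  have hD1 : ∀ f ∈ F, F.reflection f = f := fun f hf =>
    Submodule.reflection_mem_subspace_eq_self hf
  have hD2 : ∀ w ∈ Fᗮ, F.reflection w = -w := fun w hw =>
    Submodule.reflection_mem_subspace_orthogonalComplement_eq_neg hw
  refine ⟨F.reflection.toLinearEquiv.toLinearMap, ?_, ?_, ?_, ?_⟩
  · intro x y
    change ⟪F.reflection x, y⟫_ℝ = ⟪x, F.reflection y⟫_ℝ
    conv_lhs => rw [← Submodule.reflection_reflection F y]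
    exact F.reflection.inner_map_map _ _
  · intro x
    exact Submodule.reflection_reflection F x
  · intro x
    change F.reflection (T x) = T (F.reflection x)
    obtain ⟨f, hf, f', hf', rfl⟩ := hdec x
    rw [map_add, map_add, map_add, hD1 f hf, hD2 _ (hperp f' hf'), hD1 _ (hFT f hf), hTA,
      hD2 _ (hperp _ (hFT f' hf')), map_add, map_neg, hTA]
  · intro x
    change F.reflection (A x) = -A (F.reflection x)
    obtain ⟨f, hf, f', hf', rfl⟩ := hdec x
    rw [map_add, map_add, map_add, hD1 f hf, hD2 _ (hperp f' hf'), hD2 _ (hperp f hf), hAA,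
      hD1 _ (F.sub_mem (hFT _ (hFT f' hf')) (F.smul_mem _ hf')), map_add, map_neg, hAA]
    abel

theorem two_invol {N : ℕ} {g : Matrix (Fin N) (Fin N) ℝ}
    (hg : g ∈ Matrix.orthogonalGroup (Fin N) ℝ) :
    ∃ D : Matrix (Fin N) (Fin N) ℝ, D ∈ Matrix.orthogonalGroup (Fin N) ℝ ∧ Dᵀ = D ∧
      (D * g)ᵀ = D * g := by
  have h1 : g * gᵀ = 1 := (Matrix.mem_orthogonalGroup_iff (Fin N) ℝ).1 hg
  have h2 : gᵀ * g = 1 := (Matrix.mem_orthogonalGroup_iff' (Fin N) ℝ).1 hg
  have happ : ∀ (P Q : Matrix (Fin N) (Fin N) ℝ) (x : EuclideanSpace ℝ (Fin N)),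
      toEuclideanLin P (toEuclideanLin Q x) = toEuclideanLin (P * Q) x := by
    intro P Q x
    simp
  have H1 : (toEuclideanLin (g + gᵀ) : EuclideanSpace ℝ (Fin N) →ₗ[ℝ] _).IsSymmetric := by
    rw [Matrix.isSymmetric_toEuclideanLin_iff]
    rw [Matrix.IsHermitian, Matrix.conjTranspose_eq_transpose_of_trivial, Matrix.transpose_add,
      Matrix.transpose_transpose, add_comm]
  have H2 : ∀ x y : EuclideanSpace ℝ (Fin N),
      ⟪toEuclideanLin (g - gᵀ) x, y⟫_ℝ = -⟪x, toEuclideanLin (g - gᵀ) y⟫_ℝ := by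
    intro x y
    have hadj := Matrix.toEuclideanLin_conjTranspose_eq_adjoint (𝕜 := ℝ) (g - gᵀ)
    rw [Matrix.conjTranspose_eq_transpose_of_trivial, Matrix.transpose_sub,
      Matrix.transpose_transpose] at hadj
    rw [← LinearMap.adjoint_inner_right, ← hadj, ← inner_neg_right, ← LinearMap.neg_apply,
      ← map_neg, neg_sub]
  have H3 : ∀ x : EuclideanSpace ℝ (Fin N),
      toEuclideanLin (g + gᵀ) (toEuclideanLin (g - gᵀ) x) =
        toEuclideanLin (g - gᵀ) (toEuclideanLin (g + gᵀ) x) := by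
    intro x
    rw [happ, happ]
    congr 2
    noncomm_ring
    rw [h1, h2]
    abel
  have H4 : ∀ x : EuclideanSpace ℝ (Fin N),
      toEuclideanLin (g - gᵀ) (toEuclideanLin (g - gᵀ) x) =
        toEuclideanLin (g + gᵀ) (toEuclideanLin (g + gᵀ) x) - (4 : ℝ) • x := by
    intro x
    rw [happ, happ]
    have : (g - gᵀ) * (g - gᵀ) = (g + gᵀ) * (g + gᵀ) - (4 : ℝ) • (1 : Matrix (Fin N) (Fin N) ℝ) := by
      have e : (g - gᵀ) * (g - gᵀ) = g * g - g * gᵀ - gᵀ * g + gᵀ * gᵀ := by noncomm_ring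
      have e' : (g + gᵀ) * (g + gᵀ) = g * g + g * gᵀ + gᵀ * g + gᵀ * gᵀ := by noncomm_ring
      rw [e, e', h1, h2]
      have : (4 : ℝ) • (1 : Matrix (Fin N) (Fin N) ℝ) = 1 + 1 + 1 + 1 := by
        rw [show (4 : ℝ) = 1 + 1 + 1 + 1 by norm_num, add_smul, add_smul, add_smul, one_smul]
      rw [this]
      abel
    rw [this, map_sub, LinearMap.sub_apply, map_smul, LinearMap.smul_apply]
    congr 2
    simp
  obtain ⟨D, hDs, hDD, hDT, hDA⟩ := exists_conj (toEuclideanLin (g + gᵀ))
    (toEuclideanLin (g - gᵀ)) H1 H2 H3 H4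
  · set d : Matrix (Fin N) (Fin N) ℝ := toEuclideanLin.symm D with hd
    have hdD : toEuclideanLin d = D := by rw [hd, LinearEquiv.apply_symm_apply]
    have hdt : dᵀ = d := by
      have : d.IsHermitian := by
        rw [← Matrix.isSymmetric_toEuclideanLin_iff, hdD]
        exact hDs
      rwa [Matrix.IsHermitian, Matrix.conjTranspose_eq_transpose_of_trivial] at this
    have hdd : d * d = 1 := by
      apply toEuclideanLin.injective
      apply LinearMap.ext
      intro x
      rw [← happ, hdD, hDD]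
      simp
    refine ⟨d, ?_, hdt, ?_⟩
    · rw [Matrix.mem_orthogonalGroup_iff]
      change d * dᵀ = 1
      rw [hdt, hdd]
    · rw [Matrix.transpose_mul, hdt]
      apply toEuclideanLin.injective
      apply LinearMap.ext
      intro x
      rw [← happ, ← happ, hdD]
      have e1 := hDT x
      have e2 := hDA x
      have e3 : (2 : ℝ) • toEuclideanLin gᵀ (D x) = (2 : ℝ) • D (toEuclideanLin g x) := by
        have a1 : (2 : ℝ) • toEuclideanLin gᵀ (D x) =
            toEuclideanLin (g + gᵀ) (D x) - toEuclideanLin (g - gᵀ) (D x) := by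
          rw [← LinearMap.smul_apply, ← LinearMap.sub_apply, ← map_sub, ← map_smul]
          congr 2
          rw [two_smul]
          abel
        have a2 : (2 : ℝ) • toEuclideanLin g x =
            toEuclideanLin (g + gᵀ) x + toEuclideanLin (g - gᵀ) x := by
          rw [← LinearMap.smul_apply, ← LinearMap.add_apply, ← map_add, ← map_smul]
          congr 2
          rw [two_smul]
          abel
        rw [a1, ← D.map_smul, a2, D.map_add, e1, e2]
        abel
      exact smul_right_injective _ (two_ne_zero) e3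

end Vale.Agent.P166
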