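import Vale.Agent.P166.Defs

namespace Vale.Agent.P166

open MeasureTheory Filter Topology

/-- `1` if `a ≤ x`, else `0` -/
noncomputable def ind (a x : ℝ) : ℝ := if a ≤ x then 1 else 0

theorem measurable_ind (a : ℝ) : Measurable (ind a) :=
  Measurable.ite measurableSet_Ici measurable_const measurable_const

theorem ind_bd (a x : ℝ) : 0 ≤ ind a x ∧ ind a x ≤ 1 := by
  unfold ind; split_ifs <;> norm_num

/-- ramp -/
noncomputable def rmp (η x y : ℝ) : ℝ := max 0 (min 1 ((x + η - y) / η))

theorem rmp_bd (η x y : ℝ) : 0 ≤ rmp η x y ∧ rmp η x y ≤ 1 :=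
  ⟨le_max_left _ _, max_le zero_le_one (min_le_left _ _)⟩

theorem ind_le_rmp {η : ℝ} (hη : 0 < η) (x y : ℝ) : ind y x ≤ rmp η x y := by
  unfold ind
  split_ifs with h
  · refine le_max_of_le_right (le_min le_rfl ?_)
    rw [le_div_iff₀ hη]; linarith
  · exact (rmp_bd _ _ _).1

theorem rmp_le_ind {η : ℝ} (hη : 0 < η) (x y : ℝ) : rmp η x y ≤ ind y (x + η) := by
  unfold ind
  split_ifs with h
  · exact (rmp_bd _ _ _).2
  · push Not at h
    refine max_le le_rfl ((min_le_right _ _).trans ?_)
    exact div_nonpos_of_nonpos_of_nonneg (by linarith) hη.le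

theorem ind_mono (a : ℝ) {x y : ℝ} (h : x ≤ y) : ind a x ≤ ind a y := by
  unfold ind
  split_ifs with h1 h2
  · exact le_rfl
  · exact absurd (h1.trans h) h2
  · exact zero_le_one
  · exact le_rfl

theorem integrableOn_of_bd {f : ℝ → ℝ} (hf : Measurable f) {C : ℝ} (h : ∀ x, |f x| ≤ C) (M : ℝ) :
    IntegrableOn f (Set.Icc (-M) M) := by
  refine Integrable.of_bound hf.aestronglyMeasurable C (Eventually.of_forall fun x => ?_)
  rw [Real.norm_eq_abs]; exact h x

theorem int_ind {M a b : ℝ} (ha : |a| ≤ M) (hb : |b| ≤ M) :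
    ∫ x in Set.Icc (-M) M, |ind a x - ind b x| = |a - b| := by
  have h1 : ∀ x, |ind a x - ind b x| = (Set.Ico (min a b) (max a b)).indicator (fun _ => (1 : ℝ)) x := by
    intro x
    unfold ind Set.indicator
    by_cases h1 : a ≤ x <;> by_cases h2 : b ≤ x <;>
      simp only [h1, h2, if_true, if_false, Set.mem_Ico, min_le_iff, lt_max_iff, sub_self, abs_zero,
        sub_zero, zero_sub, abs_neg, abs_one, true_or, or_true, true_and, or_false, false_or,
        or_self] <;>
      split_ifs with h3 <;> simp_all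
    · rcases h3 with h | h <;> linarith
  simp only [h1]
  rw [setIntegral_indicator measurableSet_Ico]
  have h2 : Set.Icc (-M) M ∩ Set.Ico (min a b) (max a b) = Set.Ico (min a b) (max a b) := by
    rw [Set.inter_eq_right]
    intro x hx
    have ha' := abs_le.1 ha
    have hb' := abs_le.1 hb
    constructor
    · exact (le_min ha'.1 hb'.1).trans hx.1
    · exact hx.2.le.trans (max_le ha'.2 hb'.2)
  rw [h2]
  simp only [integral_const, smul_eq_mul, mul_one, measureReal_restrict_apply_univ]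
  rw [Real.volume_real_Ico, max_sub_min_eq_abs, abs_sub_comm]
  exact max_eq_left (abs_nonneg _)

theorem int_shift (M a : ℝ) {η : ℝ} (hη : 0 < η) :
    ∫ x in Set.Icc (-M) M, (ind a (x + η) - ind a x) ≤ η := by
  have h1 : ∀ x, ind a (x + η) - ind a x = (Set.Ico (a - η) a).indicator (fun _ => (1 : ℝ)) x := by
    intro x
    unfold ind Set.indicator
    simp only [Set.mem_Ico]
    by_cases h1 : a ≤ x + η <;> by_cases h2 : a ≤ x
    · rw [if_pos h1, if_pos h2, if_neg (by intro h; linarith [h.2])]; ring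
    · rw [if_pos h1, if_neg h2, if_pos ⟨by linarith, not_le.1 h2⟩]; ring
    · exact absurd (h2.trans (by linarith)) h1
    · rw [if_neg h1, if_neg h2, if_neg (by intro h; exact h1 (by linarith [h.1]))]; ring
  simp only [h1]
  rw [setIntegral_indicator measurableSet_Ico]
  simp only [integral_const, smul_eq_mul, mul_one, measureReal_restrict_apply_univ]
  calc volume.real (Set.Icc (-M) M ∩ Set.Ico (a - η) a) ≤ volume.real (Set.Ico (a - η) a) :=
        measureReal_mono Set.inter_subset_right (by simp)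
    _ = η := by rw [Real.volume_real_Ico]; simp [hη.le]

theorem sorted_abs {N : ℕ} {a b : Fin N → ℝ} (ha : Monotone a) (hb : Monotone b) (x : ℝ) :
    ∑ i, |ind (a i) x - ind (b i) x| = |∑ i, (ind (a i) x - ind (b i) x)| := by
  by_cases h : ∀ i, ind (b i) x ≤ ind (a i) x
  · rw [abs_of_nonneg (Finset.sum_nonneg fun i _ => by linarith [h i])]
    exact Finset.sum_congr rfl fun i _ => abs_of_nonneg (by linarith [h i])
  · push Not at h
    obtain ⟨i, hi⟩ := h
    have hi' : b i ≤ x ∧ x < a i := by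
      unfold ind at hi
      split_ifs at hi with h1 h2 h2
      · exact absurd hi (lt_irrefl _)
      · exact absurd hi (by norm_num)
      · exact ⟨h2, not_le.1 h1⟩
      · exact absurd hi (lt_irrefl _)
    have h2 : ∀ j, ind (a j) x ≤ ind (b j) x := by
      intro j
      unfold ind
      by_cases h3 : a j ≤ x
      · have hji : j ≤ i := by
          by_contra hc
          push Not at hc
          linarith [ha hc.le, hi'.2]
        rw [if_pos h3, if_pos ((hb hji).trans hi'.1)]
      · rw [if_neg h3]; split_ifs <;> norm_num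
    rw [abs_of_nonpos (Finset.sum_nonpos fun i _ => by linarith [h2 i]), ← Finset.sum_neg_distrib]
    exact Finset.sum_congr rfl fun i _ => abs_of_nonpos (by linarith [h2 i])

theorem measurable_rmp (η y : ℝ) : Measurable fun x => rmp η x y := by
  have : Continuous fun x => rmp η x y := by unfold rmp; fun_prop
  exact this.measurable

theorem sum_abs_le {N : ℕ} {a b : Fin N → ℝ} (ha : Monotone a) (hb : Monotone b) {M η : ℝ}
    (hη : 0 < η) (haM : ∀ i, |a i| ≤ M) (hbM : ∀ i, |b i| ≤ M) :
    ∑ i, |a i - b i| ≤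
      (∫ x in Set.Icc (-M) M, |∑ i, rmp η x (a i) - ∑ i, rmp η x (b i)|) + 2 * (N * η) := by
  have hint1 : ∀ i, IntegrableOn (fun x => |ind (a i) x - ind (b i) x|) (Set.Icc (-M) M) := by
    intro i
    refine integrableOn_of_bd (f := fun x => |ind (a i) x - ind (b i) x|)
      ((measurable_ind _).sub (measurable_ind _)).norm (C := 1) ?_ M
    intro x
    have h1 := ind_bd (a i) x
    have h2 := ind_bd (b i) x
    rw [abs_abs, abs_le]; constructor <;> linarith
  have hint2 : ∀ c : ℝ, IntegrableOn (fun x => ind c (x + η) - ind c x) (Set.Icc (-M) M) := by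
    intro c
    refine integrableOn_of_bd (f := fun x => ind c (x + η) - ind c x)
      (((measurable_ind c).comp (measurable_id.add_const η)).sub
      (measurable_ind _)) (C := 1) ?_ M
    intro x
    have h1 := ind_bd c x
    have h2 := ind_bd c (x + η)
    rw [abs_le]; constructor <;> linarith
  have hint3 : IntegrableOn (fun x => |∑ i, rmp η x (a i) - ∑ i, rmp η x (b i)|)
      (Set.Icc (-M) M) := by
    refine integrableOn_of_bd
      (f := fun x => |∑ i, rmp η x (a i) - ∑ i, rmp η x (b i)|)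
      ((Finset.measurable_fun_sum _ fun i _ => measurable_rmp η _).sub
      (Finset.measurable_fun_sum _ fun i _ => measurable_rmp η _)).norm (C := N) ?_ M
    intro x
    have h1 : ∀ c : Fin N → ℝ, 0 ≤ ∑ i, rmp η x (c i) ∧ ∑ i, rmp η x (c i) ≤ N := fun c =>
      ⟨Finset.sum_nonneg fun i _ => (rmp_bd _ _ _).1, by
        simpa using Finset.sum_le_sum fun i (_ : i ∈ Finset.univ) => (rmp_bd η x (c i)).2⟩
    have h2 := h1 a
    have h3 := h1 b
    rw [abs_abs, abs_le]; constructor <;> linarith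
  have e1 : ∑ i, |a i - b i| = ∫ x in Set.Icc (-M) M, ∑ i, |ind (a i) x - ind (b i) x| := by
    rw [integral_finsetSum _ fun i _ => hint1 i]
    exact Finset.sum_congr rfl fun i _ => (int_ind (haM i) (hbM i)).symm
  have hsum : ∀ c : Fin N → ℝ, Integrable (fun x => ∑ i, (ind (c i) (x + η) - ind (c i) x))
      (volume.restrict (Set.Icc (-M) M)) := fun c => integrable_finsetSum _ fun i _ => hint2 (c i)
  have hle : ∀ c : Fin N → ℝ, ∫ x in Set.Icc (-M) M, ∑ i, (ind (c i) (x + η) - ind (c i) x) ≤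
      N * η := by
    intro c
    rw [integral_finsetSum _ fun i _ => hint2 (c i)]
    simpa using Finset.sum_le_sum fun i (_ : i ∈ Finset.univ) => int_shift M (c i) hη
  rw [e1]
  calc ∫ x in Set.Icc (-M) M, ∑ i, |ind (a i) x - ind (b i) x|
      ≤ ∫ x in Set.Icc (-M) M, (|∑ i, rmp η x (a i) - ∑ i, rmp η x (b i)| +
        (∑ i, (ind (a i) (x + η) - ind (a i) x) + ∑ i, (ind (b i) (x + η) - ind (b i) x))) := by
        refine integral_mono (integrable_finsetSum _ fun i _ => hint1 i)
          (hint3.add ((hsum a).add (hsum b))) fun x => ?_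
        simp only
        rw [sorted_abs ha hb, Finset.sum_sub_distrib]
        have h1 : ∀ c : Fin N → ℝ, 0 ≤ ∑ i, rmp η x (c i) - ∑ i, ind (c i) x ∧
            ∑ i, rmp η x (c i) - ∑ i, ind (c i) x ≤ ∑ i, (ind (c i) (x + η) - ind (c i) x) := by
          intro c
          constructor
          · exact sub_nonneg.2 (Finset.sum_le_sum fun i _ => ind_le_rmp hη _ _)
          · rw [Finset.sum_sub_distrib]
            linarith [Finset.sum_le_sum fun i (_ : i ∈ Finset.univ) => rmp_le_ind hη x (c i)]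
        have h2 := h1 a
        have h3 := h1 b
        rw [abs_le]
        have h4 := abs_le.1 (le_refl |∑ i, rmp η x (a i) - ∑ i, rmp η x (b i)|)
        constructor <;> linarith [h4.1, h4.2]
    _ = (∫ x in Set.Icc (-M) M, |∑ i, rmp η x (a i) - ∑ i, rmp η x (b i)|) +
        ((∫ x in Set.Icc (-M) M, ∑ i, (ind (a i) (x + η) - ind (a i) x)) +
          ∫ x in Set.Icc (-M) M, ∑ i, (ind (b i) (x + η) - ind (b i) x)) := by
        have i1 := integral_add (hsum a) (hsum b)
        have i2 := integral_add (f := fun x => |∑ i, rmp η x (a i) - ∑ i, rmp η x (b i)|)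
          hint3 ((hsum a).add (hsum b))
        rw [← i1]
        exact i2
    _ ≤ _ := by linarith [hle a, hle b]

/-- the ramp as a bounded continuous function -/
noncomputable def rmpB (η x : ℝ) : BoundedContinuousFunction ℝ ℝ :=
  BoundedContinuousFunction.ofNormedAddCommGroup (fun y => rmp η x y)
    (by unfold rmp; fun_prop) 1 (fun y => by
      rw [Real.norm_eq_abs, abs_of_nonneg (rmp_bd _ _ _).1]; exact (rmp_bd _ _ _).2)

theorem tendsto_rmp {μ : Measure ℝ} {a b : ∀ N : ℕ, Fin N → ℝ} (ha : Admissible μ a)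
    (hb : Admissible μ b) (η M : ℝ) :
    Tendsto (fun N : ℕ => ∫ x in Set.Icc (-M) M,
      |1 / (N : ℝ) * ∑ i, rmp η x (a N i) - 1 / (N : ℝ) * ∑ i, rmp η x (b N i)|) atTop (𝓝 0) := by
  have h := tendsto_integral_of_dominated_convergence (μ := volume.restrict (Set.Icc (-M) M))
    (F := fun (N : ℕ) x => |1 / (N : ℝ) * ∑ i, rmp η x (a N i) - 1 / (N : ℝ) * ∑ i, rmp η x (b N i)|)
    (f := fun _ => (0 : ℝ)) (fun _ => (1 : ℝ)) ?_ (integrable_const _) ?_ ?_
  · simpa using h
  · intro N
    exact (((Finset.measurable_sum _ fun i _ => measurable_rmp η _).const_mul _).sub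
      ((Finset.measurable_sum _ fun i _ => measurable_rmp η _).const_mul _)).norm.aestronglyMeasurable
  · intro N
    refine Eventually.of_forall fun x => ?_
    have h1 : ∀ c : Fin N → ℝ, 0 ≤ 1 / (N : ℝ) * ∑ i, rmp η x (c i) ∧
        1 / (N : ℝ) * ∑ i, rmp η x (c i) ≤ 1 := by
      intro c
      have h0 : (0 : ℝ) ≤ 1 / N := by positivity
      have h2 : ∑ i, rmp η x (c i) ≤ N := by
        simpa using Finset.sum_le_sum fun i (_ : i ∈ Finset.univ) => (rmp_bd η x (c i)).2
      refine ⟨mul_nonneg h0 (Finset.sum_nonneg fun i _ => (rmp_bd _ _ _).1), ?_⟩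
      calc 1 / (N : ℝ) * ∑ i, rmp η x (c i) ≤ 1 / N * N := by gcongr
        _ ≤ 1 := by
            rcases Nat.eq_zero_or_pos N with h | h
            · subst h; simp
            · rw [one_div_mul_cancel (by positivity)]
    have h2 := h1 (a N)
    have h3 := h1 (b N)
    rw [Real.norm_eq_abs, abs_abs, abs_le]
    constructor <;> linarith
  · refine Eventually.of_forall fun x => ?_
    have h1 := (ha.weak (rmpB η x)).sub (hb.weak (rmpB η x))
    rw [sub_self] at h1
    have h2 := h1.abs
    rw [abs_zero] at h2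
    exact h2

theorem tendsto_sorted {μ : Measure ℝ} {a b : ∀ N : ℕ, Fin N → ℝ} (ha : Admissible μ a)
    (hb : Admissible μ b) (hma : ∀ N, Monotone (a N)) (hmb : ∀ N, Monotone (b N)) {M : ℝ}
    (haM : ∀ᶠ N in atTop, ∀ i, |a N i| ≤ M) (hbM : ∀ᶠ N in atTop, ∀ i, |b N i| ≤ M) :
    Tendsto (fun N : ℕ => 1 / (N : ℝ) * ∑ i, |a N i - b N i|) atTop (𝓝 0) := by
  rw [Metric.tendsto_atTop]
  intro ε hε
  have hη : 0 < ε / 4 := by linarith
  have h1 := tendsto_rmp ha hb (ε / 4) M
  rw [Metric.tendsto_atTop] at h1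
  obtain ⟨N1, h1⟩ := h1 (ε / 4) hη
  obtain ⟨N2, h2⟩ := eventually_atTop.1 (haM.and hbM)
  refine ⟨max 1 (max N1 N2), fun N hN => ?_⟩
  have hN0 : 1 ≤ N := le_of_max_le_left hN
  have hN1 := h1 N (le_of_max_le_left (le_of_max_le_right hN))
  have hN2 := h2 N (le_of_max_le_right (le_of_max_le_right hN))
  have hNpos : (0 : ℝ) < N := by exact_mod_cast hN0
  have h3 := sum_abs_le (hma N) (hmb N) hη hN2.1 hN2.2
  rw [Real.dist_eq, sub_zero] at hN1 ⊢
  have h4 : (∫ x in Set.Icc (-M) M, |1 / (N : ℝ) * ∑ i, rmp (ε / 4) x (a N i) -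
      1 / (N : ℝ) * ∑ i, rmp (ε / 4) x (b N i)|) =
      1 / N * ∫ x in Set.Icc (-M) M, |∑ i, rmp (ε / 4) x (a N i) - ∑ i, rmp (ε / 4) x (b N i)| := by
    rw [← integral_const_mul]
    congr 1
    funext x
    rw [← mul_sub, abs_mul, abs_of_nonneg (by positivity : (0 : ℝ) ≤ 1 / N)]
  rw [h4] at hN1
  have h5 := (abs_lt.1 hN1).2
  rw [abs_of_nonneg (by positivity)]
  calc 1 / (N : ℝ) * ∑ i, |a N i - b N i| ≤ 1 / N *
      ((∫ x in Set.Icc (-M) M, |∑ i, rmp (ε / 4) x (a N i) - ∑ i, rmp (ε / 4) x (b N i)|) +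
        2 * (N * (ε / 4))) := by gcongr
    _ = 1 / N * (∫ x in Set.Icc (-M) M, |∑ i, rmp (ε / 4) x (a N i) -
        ∑ i, rmp (ε / 4) x (b N i)|) + ε / 2 := by field_simp; ring
    _ < ε := by linarith

end Vale.Agent.P166
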