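import Vale.Agent.P166.Core
import Vale.Agent.P166.Quantile

namespace Vale.Agent.P166

open MeasureTheory Filter Topology

section
variable {N : ℕ}

theorem integrable_pressure {ν : Measure (Fin N → Fin N → ℝ)} (hν : IsHaar N ν) {β : ℝ}
    (hβ : 0 ≤ β) (lam : Fin N → ℝ) {φ : ℝ → ℝ} {K : NNReal} (hφ : LipschitzWith K φ) :
    Integrable (fun U => φ (pressure β lam U)) ν := by
  have := hν.prob
  set C : ℝ := 1 / N * (β / 2 * ∑ i, |lam i| * N) with hC
  refine Integrable.of_bound (hφ.continuous.measurable.comp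
    (measurable_pressure β lam)).aestronglyMeasurable
    (|φ (1 / N * Real.log ((1 / 2) ^ N) + 1 / N * Real.log (Zf (spins N) fun _ => 0))| +
      K * C) ?_
  filter_upwards [hν.orth] with U hU
  have h1 := pressure_diff hβ lam (fun _ => 0) U
  have h2 : pressure β (fun _ : Fin N => (0 : ℝ)) U =
      1 / N * Real.log ((1 / 2) ^ N) + 1 / N * Real.log (Zf (spins N) fun _ => 0) := by
    rw [pressure_eq]
    congr 4
    funext σ
    simp [en]
  have h3 : |pressure β lam U - pressure β (fun _ => 0) U| ≤ C := by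
    refine h1.trans ?_
    rw [hC]
    simp only [sub_zero]
    gcongr with i
    exact wt_le _ _ hU i
  have h4 := hφ.dist_le_mul (pressure β lam U) (pressure β (fun _ => 0) U)
  rw [Real.dist_eq, Real.dist_eq] at h4
  have h5 : (K : ℝ) * |pressure β lam U - pressure β (fun _ => 0) U| ≤ K * C := by gcongr
  rw [h2] at h4 h5
  rw [Real.norm_eq_abs]
  have h6 := abs_sub_abs_le_abs_sub (φ (pressure β lam U))
    (φ (1 / N * Real.log ((1 / 2) ^ N) + 1 / N * Real.log (Zf (spins N) fun _ => 0)))
  linarith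

theorem main_ineq {ν : Measure (Fin N → Fin N → ℝ)} (hν : IsHaar N ν) {β : ℝ} (hβ : 0 ≤ β)
    {a b : Fin N → ℝ} (ha : Monotone a) (hb : Monotone b) {t M c : ℝ} (htM : t ≤ M)
    (haM : ∀ i, a i ≤ M) (hbM : ∀ i, b i ≤ M) (hc : 0 < c) (hN : 0 < N)
    (hT : c * N ≤ ((Finset.univ.filter fun i => t ≤ a i ∧ t ≤ b i).card : ℝ)) :
    ∫ U, |pressure β a U - pressure β b U| ∂ν ≤
      β / 2 * ((M - t) + 1 / c * (1 / N * ∑ i, |a i - b i|)) := by
  have := hν.prob
  have hN' : (0 : ℝ) < N := by exact_mod_cast hN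
  set p : Fin N → ℝ := fun i => max (a i) (b i) with hp
  have hpm : Monotone p := fun i j hij => max_le_max (ha hij) (hb hij)
  set W : Fin N → ℝ := Wt ν β p with hW
  have hW0 : ∀ i, 0 ≤ W i := Wt_nonneg ν β p
  have hWs : ∑ i, W i = N := sum_Wt hν β p
  have hWm : ∀ i j, i ≤ j → W i ≤ W j := fun i j hij => Wt_mono hν hβ p (hpm hij)
  have h1 : ∫ U, |pressure β a U - pressure β b U| ∂ν ≤
      1 / N * (β / 2 * ∑ i, |a i - b i| * W i) := by
    have hint : Integrable (fun U => 1 / (N : ℝ) * (β / 2 * ∑ i, |a i - b i| * wt β p U i)) ν :=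
      ((integrable_finsetSum _ fun i _ => (integrable_wt hν β p i).const_mul _).const_mul _).const_mul _
    calc ∫ U, |pressure β a U - pressure β b U| ∂ν
        ≤ ∫ U, 1 / (N : ℝ) * (β / 2 * ∑ i, |a i - b i| * wt β p U i) ∂ν := by
          refine integral_mono_of_nonneg (Eventually.of_forall fun U => abs_nonneg _) hint
            (Eventually.of_forall fun U => pressure_diff hβ a b U)
      _ = _ := by
          rw [integral_const_mul, integral_const_mul, integral_finsetSum _ fun i _ =>
            (integrable_wt hν β p i).const_mul _]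
          simp only [integral_const_mul]
          rfl
  have h2 : ∀ i, |a i - b i| * W i ≤ (M - t) * W i + |a i - b i| * (1 / c) := by
    intro i
    by_cases hi : t ≤ a i ∧ t ≤ b i
    · have h3 : |a i - b i| ≤ M - t := by
        rw [abs_le]; constructor <;> linarith [haM i, hbM i, hi.1, hi.2]
      have h4 : |a i - b i| * W i ≤ (M - t) * W i := mul_le_mul_of_nonneg_right h3 (hW0 i)
      have h5 : 0 ≤ |a i - b i| * (1 / c) := by positivity
      linarith
    · have h3 : W i ≤ 1 / c := by
        rw [le_div_iff₀ hc]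
        have h4 : ∀ j ∈ Finset.univ.filter (fun i => t ≤ a i ∧ t ≤ b i), W i ≤ W j := by
          intro j hj
          rw [Finset.mem_filter] at hj
          refine hWm i j ?_
          by_contra hc'
          push Not at hc'
          exact hi ⟨hj.2.1.trans (ha hc'.le), hj.2.2.trans (hb hc'.le)⟩
        have h5 : ((Finset.univ.filter fun i => t ≤ a i ∧ t ≤ b i).card : ℝ) * W i ≤ N := by
          rw [← nsmul_eq_mul, ← hWs]
          refine (Finset.card_nsmul_le_sum _ _ _ h4).trans ?_
          exact Finset.sum_le_sum_of_subset_of_nonneg (Finset.subset_univ _) fun j _ _ => hW0 j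
        have h6 : c * N * W i ≤ N := (mul_le_mul_of_nonneg_right hT (hW0 i)).trans h5
        have h7 : N * (W i * c) ≤ N * 1 := by linarith
        exact le_of_mul_le_mul_left h7 hN'
      have h8 : |a i - b i| * W i ≤ |a i - b i| * (1 / c) :=
        mul_le_mul_of_nonneg_left h3 (abs_nonneg _)
      have h9 : 0 ≤ (M - t) * W i := mul_nonneg (by linarith) (hW0 i)
      linarith
  have h3 : ∑ i, |a i - b i| * W i ≤ (M - t) * N + (∑ i, |a i - b i|) * (1 / c) := by
    refine (Finset.sum_le_sum fun i _ => h2 i).trans ?_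
    rw [Finset.sum_add_distrib, ← Finset.mul_sum, hWs, Finset.sum_mul]
  calc ∫ U, |pressure β a U - pressure β b U| ∂ν ≤ 1 / N * (β / 2 * ∑ i, |a i - b i| * W i) := h1
    _ ≤ 1 / N * (β / 2 * ((M - t) * N + (∑ i, |a i - b i|) * (1 / c))) := by gcongr
    _ = _ := by field_simp

/-- the law of the pressure depends only on the multiset of eigenvalues -/
theorem law_perm {ν : Measure (Fin N → Fin N → ℝ)} (hν : IsHaar N ν) (β : ℝ) (lam : Fin N → ℝ)
    (τ : Equiv.Perm (Fin N)) :
    ν.map (pressure β (lam ∘ τ)) = ν.map (pressure β lam) := by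
  conv_lhs => rw [← permRows_inv hν τ]
  rw [Measure.map_map (measurable_pressure β _) (measurable_permRows τ)]
  congr 1
  funext U
  exact pressure_permRows β lam τ U

theorem card_nested {a b : Fin N → ℝ} (ha : Monotone a) (hb : Monotone b) (t : ℝ) {k : ℝ}
    (h1 : k ≤ ((Finset.univ.filter fun i => t ≤ a i).card : ℝ))
    (h2 : k ≤ ((Finset.univ.filter fun i => t ≤ b i).card : ℝ)) :
    k ≤ ((Finset.univ.filter fun i => t ≤ a i ∧ t ≤ b i).card : ℝ) := by
  by_cases h : ∀ i, t ≤ a i → t ≤ b i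
  · refine h1.trans ?_
    have : (Finset.univ.filter fun i => t ≤ a i) ⊆ Finset.univ.filter fun i => t ≤ a i ∧ t ≤ b i := by
      intro i hi
      simp only [Finset.mem_filter, Finset.mem_univ, true_and] at hi ⊢
      exact ⟨hi, h i hi⟩
    exact_mod_cast Finset.card_le_card this
  · push Not at h
    obtain ⟨i, hi, hi'⟩ := h
    refine h2.trans ?_
    have : (Finset.univ.filter fun i => t ≤ b i) ⊆ Finset.univ.filter fun i => t ≤ a i ∧ t ≤ b i := by
      intro j hj
      simp only [Finset.mem_filter, Finset.mem_univ, true_and] at hj ⊢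
      refine ⟨?_, hj⟩
      have : i ≤ j := by
        by_contra hc
        push Not at hc
        linarith [hb hc.le]
      exact hi.trans (ha this)
    exact_mod_cast Finset.card_le_card this

end

theorem Admissible.sorted {μ : Measure ℝ} {lam : ∀ N : ℕ, Fin N → ℝ} (h : Admissible μ lam) :
    Admissible μ (fun N => lam N ∘ Tuple.sort (lam N)) where
  weak f := by
    have : (fun N : ℕ => 1 / (N : ℝ) * ∑ i, f ((lam N ∘ Tuple.sort (lam N)) i)) =
        fun N : ℕ => 1 / (N : ℝ) * ∑ i, f (lam N i) := by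
      funext N
      congr 1
      exact Equiv.sum_comp (Tuple.sort (lam N)) fun i => f (lam N i)
    rw [this]
    exact h.weak f
  bot := by
    have : (fun N => ⨅ i, (lam N ∘ Tuple.sort (lam N)) i) = fun N => ⨅ i, lam N i := by
      funext N
      exact Equiv.iInf_comp (Tuple.sort (lam N)) (g := lam N)
    rw [this]
    exact h.bot
  top := by
    have : (fun N => ⨆ i, (lam N ∘ Tuple.sort (lam N)) i) = fun N => ⨆ i, lam N i := by
      funext N
      exact Equiv.iSup_comp (Tuple.sort (lam N)) (g := lam N)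
    rw [this]
    exact h.top

theorem ev_le {μ : Measure ℝ} {lam : ∀ N : ℕ, Fin N → ℝ} (h : Admissible μ lam) {M : ℝ}
    (hM : sSup μ.support < M) : ∀ᶠ N in atTop, ∀ i, lam N i ≤ M := by
  filter_upwards [h.top.eventually (gt_mem_nhds hM)] with N hN i
  exact (le_ciSup (Set.finite_range _).bddAbove i).trans hN.le

theorem ev_ge {μ : Measure ℝ} {lam : ∀ N : ℕ, Fin N → ℝ} (h : Admissible μ lam) {M : ℝ}
    (hM : M < sInf μ.support) : ∀ᶠ N in atTop, ∀ i, M ≤ lam N i := by
  filter_upwards [h.bot.eventually (lt_mem_nhds hM)] with N hN i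
  exact hN.le.trans (ciInf_le (Set.finite_range _).bddBelow i)

theorem ev_count {μ : Measure ℝ} [IsProbabilityMeasure μ] (hμ : IsCompact μ.support)
    {ε : ℝ} (hε : 0 < ε) : ∃ c : ℝ, 0 < c ∧ ∀ lam : ∀ N : ℕ, Fin N → ℝ, Admissible μ lam →
      ∀ᶠ N : ℕ in atTop, c * N ≤
        ((Finset.univ.filter fun i => sSup μ.support - ε ≤ lam N i).card : ℝ) := by
  set s := sSup μ.support with hs
  have hne : μ.support.Nonempty := Measure.nonempty_support (IsProbabilityMeasure.ne_zero μ)
  have hmem : s ∈ μ.support := hμ.sSup_mem hne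
  set g : BoundedContinuousFunction ℝ ℝ := 1 - rmpB (ε / 2) (s - ε) with hg
  have hgx : ∀ y, g y = 1 - rmp (ε / 2) (s - ε) y := fun y => rfl
  have hg0 : ∀ y, 0 ≤ g y := fun y => by rw [hgx]; linarith [(rmp_bd (ε / 2) (s - ε) y).2]
  have hpos : 0 < ∫ y, g y ∂μ := by
    rw [integral_pos_iff_support_of_nonneg hg0 (g.integrable μ)]
    have h1 : Set.Ioi (s - ε / 2) ⊆ Function.support g := by
      intro y hy
      rw [Function.mem_support, hgx]
      have h2 := rmp_le_ind (by linarith : 0 < ε / 2) (s - ε) y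
      have h3 : ind y (s - ε + ε / 2) = 0 := by
        unfold ind
        rw [if_neg]
        have : s - ε / 2 < y := hy
        push Not
        linarith
      rw [h3] at h2
      have h4 := (rmp_bd (ε / 2) (s - ε) y).1
      have : rmp (ε / 2) (s - ε) y = 0 := le_antisymm h2 h4
      rw [this]; norm_num
    refine lt_of_lt_of_le ?_ (measure_mono h1)
    exact (Measure.mem_support_iff_forall s).1 hmem _ (Ioi_mem_nhds (by linarith))
  refine ⟨(∫ y, g y ∂μ) / 2, by linarith, fun lam h => ?_⟩
  filter_upwards [(h.weak g).eventually (lt_mem_nhds (half_lt_self hpos)),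
    eventually_gt_atTop 0] with N hN hN0
  have hN' : (0 : ℝ) < N := by exact_mod_cast hN0
  have h1 : (∫ y, g y ∂μ) / 2 * N ≤ ∑ i, g (lam N i) := by
    rw [one_div, inv_mul_eq_div, lt_div_iff₀ hN'] at hN
    exact hN.le
  refine h1.trans ?_
  rw [Finset.card_filter]
  push_cast
  refine Finset.sum_le_sum fun i _ => ?_
  rw [hgx]
  split_ifs with h2
  · linarith [(rmp_bd (ε / 2) (s - ε) (lam N i)).1]
  · have h3 := ind_le_rmp (by linarith : 0 < ε / 2) (s - ε) (lam N i)
    have h4 : ind (lam N i) (s - ε) = 1 := by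
      unfold ind
      rw [if_pos]
      push Not at h2
      exact h2.le
    linarith

theorem tendsto_L1 {μ : Measure ℝ} [IsProbabilityMeasure μ] (hμ : IsCompact μ.support)
    {a b : ∀ N : ℕ, Fin N → ℝ} (ha : Admissible μ a)
    (hb : Admissible μ b) (hma : ∀ N, Monotone (a N)) (hmb : ∀ N, Monotone (b N))
    {ν : ∀ N : ℕ, Measure (Fin N → Fin N → ℝ)} (hν : ∀ N, IsHaar N (ν N)) {β : ℝ} (hβ : 0 ≤ β) :
    Tendsto (fun N : ℕ => ∫ U, |pressure β (a N) U - pressure β (b N) U| ∂(ν N)) atTop (𝓝 0) := by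
  set s := sSup μ.support with hs
  set i0 := sInf μ.support with hi0
  set R : ℝ := max (|s| + 1) (|i0| + 1) with hR
  have hRs : s < R := by
    refine lt_of_lt_of_le ?_ (le_max_left _ _); linarith [le_abs_self s]
  have hRi : -R < i0 := by
    have : |i0| + 1 ≤ R := le_max_right _ _
    linarith [neg_abs_le i0]
  have habs : ∀ {c : ∀ N : ℕ, Fin N → ℝ}, Admissible μ c → ∀ᶠ N in atTop, ∀ i, |c N i| ≤ R := by
    intro c hc
    filter_upwards [ev_le hc hRs, ev_ge hc hRi] with N h1 h2 i
    exact abs_le.2 ⟨h2 i, h1 i⟩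
  have hW1 := tendsto_sorted ha hb hma hmb (habs ha) (habs hb)
  rw [Metric.tendsto_atTop]
  intro e he
  -- choose ε with β ε < e / 2
  set ε : ℝ := e / (2 * (β + 1)) with hε
  have hεp : 0 < ε := by positivity
  have hβε : β * ε < e / 2 := by
    rw [hε, mul_div_assoc', div_lt_div_iff₀ (by positivity) (by norm_num)]
    nlinarith
  obtain ⟨c, hc, hcount⟩ := ev_count hμ hεp
  have hW2 : Tendsto (fun N : ℕ => β / 2 * (1 / c * (1 / (N : ℝ) * ∑ i, |a N i - b N i|)))
      atTop (𝓝 0) := by
    simpa using (hW1.const_mul (1 / c)).const_mul (β / 2)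
  obtain ⟨N0, hN0⟩ := eventually_atTop.1 ((ev_le ha (by linarith : s < s + ε)).and
    ((ev_le hb (by linarith : s < s + ε)).and ((hcount a ha).and ((hcount b hb).and
      ((eventually_gt_atTop 0).and (hW2.eventually (gt_mem_nhds (by linarith : 0 < e / 2))))))))
  refine ⟨N0, fun N hN => ?_⟩
  obtain ⟨h1, h2, h3, h4, h5, h6⟩ := hN0 N hN
  have h7 := main_ineq (hν N) hβ (hma N) (hmb N) (t := s - ε) (M := s + ε) (c := c) (by linarith)
    h1 h2 hc h5 (card_nested (hma N) (hmb N) _ h3 h4)
  rw [Real.dist_eq, sub_zero, abs_of_nonneg (integral_nonneg fun U => abs_nonneg _)]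
  calc ∫ U, |pressure β (a N) U - pressure β (b N) U| ∂(ν N)
      ≤ β / 2 * ((s + ε - (s - ε)) + 1 / c * (1 / N * ∑ i, |a N i - b N i|)) := h7
    _ = β * ε + β / 2 * (1 / c * (1 / (N : ℝ) * ∑ i, |a N i - b N i|)) := by ring
    _ < e := by linarith

end Vale.Agent.P166
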