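import Vale.Agent.P166.Defs

/-! P166: moments of the coordinates of `U x`, `U` Haar distributed on the orthogonal group -/

namespace Vale.Agent.P166

open MeasureTheory Filter Topology Matrix

namespace Mom

variable {N : ℕ}

/-- The reflection `1 - c w wᵀ`. -/
noncomputable def rfl' (c : ℝ) (w : Fin N → ℝ) : Matrix (Fin N) (Fin N) ℝ :=
  1 - c • Matrix.vecMulVec w w

theorem rfl_mulVec (c : ℝ) (w y : Fin N → ℝ) (i : Fin N) :
    (rfl' c w *ᵥ y) i = y i - c * (w ⬝ᵥ y) * w i := by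
  unfold rfl'
  rw [Matrix.sub_mulVec, Matrix.one_mulVec, Matrix.smul_mulVec, Matrix.vecMulVec_mulVec]
  simp only [Pi.sub_apply, Pi.smul_apply, smul_eq_mul, MulOpposite.smul_eq_mul_unop,
    MulOpposite.unop_op]
  ring

theorem rfl_mem {c : ℝ} {w : Fin N → ℝ} (h : c * (w ⬝ᵥ w) = 2) :
    rfl' c w ∈ Matrix.orthogonalGroup (Fin N) ℝ := by
  rw [Matrix.mem_orthogonalGroup_iff]
  have hst : (rfl' c w)ᵀ = rfl' c w := by
    unfold rfl'
    ext i k
    simp [Matrix.vecMulVec_apply, mul_comm, Matrix.one_apply, eq_comm]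
  rw [hst]
  have h2 : Matrix.vecMulVec w w * Matrix.vecMulVec w w = (w ⬝ᵥ w) • Matrix.vecMulVec w w := by
    ext i k
    simp only [Matrix.mul_apply, Matrix.vecMulVec_apply, Matrix.smul_apply, smul_eq_mul,
      dotProduct]
    rw [Finset.sum_mul]
    refine Finset.sum_congr rfl fun l _ => ?_
    ring
  unfold rfl'
  rw [sub_mul, mul_sub, mul_sub, one_mul, one_mul, mul_one, Matrix.smul_mul, Matrix.mul_smul, h2,
    smul_smul, smul_smul]
  have h3 : c * c * (w ⬝ᵥ w) = c + c := by rw [mul_assoc, h]; ring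
  rw [h3, add_smul]
  abel

theorem mv_meas (x : Fin N → ℝ) :
    Measurable (fun U : Fin N → Fin N → ℝ => Matrix.of U *ᵥ x) := by
  refine measurable_pi_lambda _ fun i => ?_
  simp only [Matrix.mulVec, dotProduct, Matrix.of_apply]
  fun_prop

theorem left_meas (V : Matrix (Fin N) (Fin N) ℝ) :
    Measurable (fun U : Fin N → Fin N → ℝ => Matrix.of.symm (V * Matrix.of U)) := by
  refine measurable_pi_lambda _ fun i => measurable_pi_lambda _ fun k => ?_
  simp only [Matrix.of_symm_apply, Matrix.mul_apply, Matrix.of_apply]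
  fun_prop

theorem inv_int {ν : Measure (Fin N → Fin N → ℝ)} (hν : IsHaar N ν)
    {V : Matrix (Fin N) (Fin N) ℝ} (hV : V ∈ Matrix.orthogonalGroup (Fin N) ℝ)
    (x : Fin N → ℝ) {g : (Fin N → ℝ) → ℝ} (hg : Measurable g) :
    ∫ U, g (V *ᵥ (Matrix.of U *ᵥ x)) ∂ν = ∫ U, g (Matrix.of U *ᵥ x) ∂ν := by
  conv_rhs => rw [← hν.inv V hV]
  rw [integral_map (f := fun U => g (Matrix.of U *ᵥ x)) (left_meas V).aemeasurable
    ((hg.comp (mv_meas x)).aestronglyMeasurable)]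
  refine integral_congr_ae (ae_of_all _ fun U => ?_)
  simp [Matrix.mulVec_mulVec]

theorem norm_ae {ν : Measure (Fin N → Fin N → ℝ)} (hν : IsHaar N ν) (x : Fin N → ℝ) :
    ∀ᵐ U ∂ν, ∑ i, ((Matrix.of U *ᵥ x) i) ^ 2 = ∑ i, x i ^ 2 := by
  filter_upwards [hν.orth] with U hU
  have h1 : (Matrix.of U)ᵀ * Matrix.of U = 1 := (Matrix.mem_orthogonalGroup_iff' _ _).1 hU
  have h2 : (Matrix.of U *ᵥ x) ⬝ᵥ (Matrix.of U *ᵥ x) = x ⬝ᵥ x := by
    rw [Matrix.dotProduct_mulVec, Matrix.vecMul_mulVec, h1, Matrix.vecMul_one] 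
  simpa [dotProduct, sq] using h2

theorem sq_le_ae {ν : Measure (Fin N → Fin N → ℝ)} (hν : IsHaar N ν) (x : Fin N → ℝ) :
    ∀ᵐ U ∂ν, ∀ i, ((Matrix.of U *ᵥ x) i) ^ 2 ≤ ∑ i, x i ^ 2 := by
  filter_upwards [norm_ae hν x] with U hU i
  rw [← hU]
  exact Finset.single_le_sum (f := fun i => ((Matrix.of U *ᵥ x) i) ^ 2)
    (fun k _ => sq_nonneg _) (Finset.mem_univ i)

theorem integ {ν : Measure (Fin N → Fin N → ℝ)} (hν : IsHaar N ν) (x : Fin N → ℝ)
    (i k : Fin N) (a b : ℕ) :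
    Integrable (fun U => ((Matrix.of U *ᵥ x) i) ^ a * ((Matrix.of U *ᵥ x) k) ^ b) ν := by
  have := hν.prob
  set B := ∑ i, x i ^ 2
  have hB : 0 ≤ B := Finset.sum_nonneg fun i _ => sq_nonneg _
  refine Integrable.of_bound (C := (1 + B) ^ a * (1 + B) ^ b) ?_ ?_
  · have h := mv_meas x
    have hi : Measurable fun U : Fin N → Fin N → ℝ => (Matrix.of U *ᵥ x) i :=
      (measurable_pi_apply i).comp h
    have hk : Measurable fun U : Fin N → Fin N → ℝ => (Matrix.of U *ᵥ x) k :=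
      (measurable_pi_apply k).comp h
    exact ((hi.pow_const a).mul (hk.pow_const b)).aestronglyMeasurable
  · filter_upwards [sq_le_ae hν x] with U hU
    have key : ∀ l, |(Matrix.of U *ᵥ x) l| ≤ 1 + B := by
      intro l
      have := hU l
      rw [abs_le]
      constructor <;> nlinarith [sq_nonneg ((Matrix.of U *ᵥ x) l + 1),
        sq_nonneg ((Matrix.of U *ᵥ x) l - 1)]
    rw [Real.norm_eq_abs, abs_mul, abs_pow, abs_pow]
    exact mul_le_mul (pow_le_pow_left₀ (abs_nonneg _) (key i) a)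
      (pow_le_pow_left₀ (abs_nonneg _) (key k) b) (by positivity) (by positivity)

end Mom

open Mom

theorem second_moment {N : ℕ} {ν : Measure (Fin N → Fin N → ℝ)} (hν : IsHaar N ν)
    (x : Fin N → ℝ) (j : Fin N) :
    ∫ U, ((Matrix.of U *ᵥ x) j) ^ 2 ∂ν = (∑ i, x i ^ 2) / N := by
  have := hν.prob
  have hN : (N : ℝ) ≠ 0 := by
    have := j.pos
    positivity
  have hswap : ∀ k, ∫ U, ((Matrix.of U *ᵥ x) k) ^ 2 ∂ν = ∫ U, ((Matrix.of U *ᵥ x) j) ^ 2 ∂ν := by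
    intro k
    by_cases hjk : j = k
    · rw [hjk]
    · have hw : (1 : ℝ) * ((Pi.single j (1 : ℝ) - Pi.single k 1 : Fin N → ℝ) ⬝ᵥ
          (Pi.single j 1 - Pi.single k 1)) = 2 := by
        simp [hjk, Ne.symm hjk]
        norm_num
      have h := inv_int hν (rfl_mem hw) x (g := fun y => y j ^ 2) (by fun_prop)
      rw [← h]
      refine integral_congr_ae (ae_of_all _ fun U => ?_)
      simp only [rfl_mulVec]
      congr 1
      simp [hjk, Ne.symm hjk, sub_dotProduct]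
  have hint : ∀ k, Integrable (fun U => ((Matrix.of U *ᵥ x) k) ^ 2) ν := by
    intro k
    simpa using integ hν x k k 2 0
  have h1 : ∑ k, ∫ U, ((Matrix.of U *ᵥ x) k) ^ 2 ∂ν = ∑ i, x i ^ 2 := by
    rw [← integral_finsetSum _ fun k _ => hint k]
    rw [integral_congr_ae (norm_ae hν x)]
    simp
  rw [Finset.sum_congr rfl fun k _ => hswap k] at h1
  simp only [Finset.sum_const, Finset.card_univ, Fintype.card_fin, nsmul_eq_mul] at h1
  field_simp
  linarith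

theorem moment_rel {N : ℕ} {ν : Measure (Fin N → Fin N → ℝ)} (hν : IsHaar N ν)
    (x : Fin N → ℝ) {j k : Fin N} (hjk : j ≠ k) :
    ∫ U, ((Matrix.of U *ᵥ x) j) ^ 4 ∂ν =
      3 * ∫ U, ((Matrix.of U *ᵥ x) j) ^ 2 * ((Matrix.of U *ᵥ x) k) ^ 2 ∂ν := by
  have := hν.prob
  have hkj := hjk.symm
  -- swap
  have e1 : ∫ U, ((Matrix.of U *ᵥ x) k) ^ 4 ∂ν = ∫ U, ((Matrix.of U *ᵥ x) j) ^ 4 ∂ν := by
    have hw : (1 : ℝ) * ((Pi.single j (1 : ℝ) - Pi.single k 1 : Fin N → ℝ) ⬝ᵥ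
        (Pi.single j 1 - Pi.single k 1)) = 2 := by
      simp [hjk, hkj]
      norm_num
    have h := inv_int hν (rfl_mem hw) x (g := fun y => y j ^ 4) (by fun_prop)
    rw [← h]
    refine integral_congr_ae (ae_of_all _ fun U => ?_)
    simp only [rfl_mulVec]
    congr 1
    simp [hjk, hkj, sub_dotProduct]
  -- sign flip
  have hw2 : (2 : ℝ) * ((Pi.single k (1 : ℝ) : Fin N → ℝ) ⬝ᵥ Pi.single k 1) = 2 := by simp
  have flip : ∀ a b : ℕ, ∫ U, ((Matrix.of U *ᵥ x) j) ^ a * ((Matrix.of U *ᵥ x) k) ^ b ∂ν =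
      ∫ U, ((Matrix.of U *ᵥ x) j) ^ a * (-(Matrix.of U *ᵥ x) k) ^ b ∂ν := by
    intro a b
    have h := inv_int hν (rfl_mem hw2) x (g := fun y => y j ^ a * y k ^ b) (by fun_prop)
    rw [← h]
    refine integral_congr_ae (ae_of_all _ fun U => ?_)
    simp only [rfl_mulVec]
    have h1 : (Matrix.of U *ᵥ x) j - 2 * ((Pi.single k (1 : ℝ) : Fin N → ℝ) ⬝ᵥ
        (Matrix.of U *ᵥ x)) * (Pi.single k (1 : ℝ) : Fin N → ℝ) j = (Matrix.of U *ᵥ x) j := by
      simp [hjk]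
    have h2 : (Matrix.of U *ᵥ x) k - 2 * ((Pi.single k (1 : ℝ) : Fin N → ℝ) ⬝ᵥ
        (Matrix.of U *ᵥ x)) * (Pi.single k (1 : ℝ) : Fin N → ℝ) k = -(Matrix.of U *ᵥ x) k := by
      simp
      ring
    rw [h1, h2]
  have o1 : ∫ U, ((Matrix.of U *ᵥ x) j) ^ 3 * ((Matrix.of U *ᵥ x) k) ^ 1 ∂ν = 0 := by
    have h := flip 3 1
    have h2 : ∫ U, ((Matrix.of U *ᵥ x) j) ^ 3 * (-(Matrix.of U *ᵥ x) k) ^ 1 ∂ν =
        -∫ U, ((Matrix.of U *ᵥ x) j) ^ 3 * ((Matrix.of U *ᵥ x) k) ^ 1 ∂ν := by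
      rw [← integral_neg]
      refine integral_congr_ae (ae_of_all _ fun U => ?_)
      simp
    linarith
  have o2 : ∫ U, ((Matrix.of U *ᵥ x) j) ^ 1 * ((Matrix.of U *ᵥ x) k) ^ 3 ∂ν = 0 := by
    have h := flip 1 3
    have h2 : ∫ U, ((Matrix.of U *ᵥ x) j) ^ 1 * (-(Matrix.of U *ᵥ x) k) ^ 3 ∂ν =
        -∫ U, ((Matrix.of U *ᵥ x) j) ^ 1 * ((Matrix.of U *ᵥ x) k) ^ 3 ∂ν := by
      rw [← integral_neg]
      refine integral_congr_ae (ae_of_all _ fun U => ?_)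
      simp only [Odd.neg_pow (by decide : Odd 3)]
      ring
    linarith
  -- rotation
  have hw3 : (2 / 5 : ℝ) * ((Pi.single j (1 : ℝ) + (2 : ℝ) • Pi.single k 1 : Fin N → ℝ) ⬝ᵥ
      (Pi.single j 1 + (2 : ℝ) • Pi.single k 1)) = 2 := by
    simp [hjk, hkj]
    norm_num
  have r := inv_int hν (rfl_mem hw3) x (g := fun y => y j ^ 4) (by fun_prop)
  have hexp : ∀ U : Fin N → Fin N → ℝ,
      ((rfl' (2 / 5) (Pi.single j (1 : ℝ) + (2 : ℝ) • Pi.single k 1) *ᵥ (Matrix.of U *ᵥ x)) j) ^ 4 =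
      81 / 625 * ((Matrix.of U *ᵥ x) j) ^ 4
        - 432 / 625 * (((Matrix.of U *ᵥ x) j) ^ 3 * ((Matrix.of U *ᵥ x) k) ^ 1)
        + 864 / 625 * (((Matrix.of U *ᵥ x) j) ^ 2 * ((Matrix.of U *ᵥ x) k) ^ 2)
        - 768 / 625 * (((Matrix.of U *ᵥ x) j) ^ 1 * ((Matrix.of U *ᵥ x) k) ^ 3)
        + 256 / 625 * ((Matrix.of U *ᵥ x) k) ^ 4 := by
    intro U
    rw [rfl_mulVec]
    have h1 : (Matrix.of U *ᵥ x) j - 2 / 5 * ((Pi.single j (1 : ℝ) + (2 : ℝ) • Pi.single k 1 :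
        Fin N → ℝ) ⬝ᵥ (Matrix.of U *ᵥ x)) *
        (Pi.single j (1 : ℝ) + (2 : ℝ) • Pi.single k 1 : Fin N → ℝ) j =
        3 / 5 * (Matrix.of U *ᵥ x) j - 4 / 5 * (Matrix.of U *ᵥ x) k := by
      simp [hjk, hkj, add_dotProduct]
      ring
    rw [h1]
    ring
  simp only [hexp] at r
  have i4j : Integrable (fun U => ((Matrix.of U *ᵥ x) j) ^ 4) ν := by
    simpa using integ hν x j j 4 0
  have i4k : Integrable (fun U => ((Matrix.of U *ᵥ x) k) ^ 4) ν := by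
    simpa using integ hν x k k 4 0
  have i31 := integ hν x j k 3 1
  have i22 := integ hν x j k 2 2
  have i13 := integ hν x j k 1 3
  rw [integral_add, integral_sub, integral_add, integral_sub, integral_const_mul,
    integral_const_mul, integral_const_mul, integral_const_mul, integral_const_mul, e1, o1, o2] at r
  · linarith
  all_goals fun_prop (disch := assumption)

theorem fourth_moment {N : ℕ} {ν : Measure (Fin N → Fin N → ℝ)} (hν : IsHaar N ν)
    (hN : 2 ≤ N) (x : Fin N → ℝ) (j : Fin N) :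
    ∫ U, ((Matrix.of U *ᵥ x) j) ^ 4 ∂ν ≤ 6 * (∑ i, x i ^ 2) ^ 2 / N ^ 2 := by
  have := hν.prob
  set B := ∑ i, x i ^ 2 with hB
  set m := ∫ U, ((Matrix.of U *ᵥ x) j) ^ 4 ∂ν with hm
  have hB0 : 0 ≤ B := Finset.sum_nonneg fun i _ => sq_nonneg _
  have hsum : ∑ k ∈ Finset.univ.erase j,
      ∫ U, ((Matrix.of U *ᵥ x) j) ^ 2 * ((Matrix.of U *ᵥ x) k) ^ 2 ∂ν ≤ B * (B / N) := by
    rw [← integral_finsetSum _ fun k _ => integ hν x j k 2 2, hB, ← second_moment hν x j,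
      ← integral_const_mul]
    refine integral_mono_ae ?_ ?_ ?_
    · exact integrable_finsetSum _ fun k _ => integ hν x j k 2 2
    · refine Integrable.const_mul ?_ _
      simpa using integ hν x j j 2 0
    · filter_upwards [norm_ae hν x] with U hU
      show ∑ k ∈ Finset.univ.erase j, _ ≤ _
      rw [← Finset.mul_sum, ← hU, mul_comm]
      refine mul_le_mul_of_nonneg_right ?_ (sq_nonneg _)
      exact Finset.sum_le_sum_of_subset_of_nonneg (Finset.erase_subset _ _)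
        fun i _ _ => sq_nonneg _
  have hcard : ((Finset.univ.erase j).card : ℝ) = N - 1 := by
    rw [Finset.card_erase_of_mem (Finset.mem_univ j), Finset.card_univ, Fintype.card_fin]
    push_cast [Nat.cast_sub (by omega : 1 ≤ N)]
    ring
  have h3 : ∑ k ∈ Finset.univ.erase j,
      ∫ U, ((Matrix.of U *ᵥ x) j) ^ 2 * ((Matrix.of U *ᵥ x) k) ^ 2 ∂ν = (N - 1) * (m / 3) := by
    rw [← hcard, ← nsmul_eq_mul, ← Finset.sum_const]
    refine Finset.sum_congr rfl fun k hk => ?_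
    have := moment_rel hν x (Finset.ne_of_mem_erase hk).symm
    rw [hm, this]
    ring
  rw [h3] at hsum
  have hN' : (2 : ℝ) ≤ N := by exact_mod_cast hN
  have hm0 : 0 ≤ m := integral_nonneg fun U => by positivity
  rw [le_div_iff₀ (by positivity)]
  have h4 : B * (B / N) * N = B ^ 2 := by field_simp
  have h5 : (N - 1) * (m / 3) * N ≤ B ^ 2 := by
    rw [← h4]
    exact mul_le_mul_of_nonneg_right hsum (by positivity)
  have h6 : m * N * N ≤ m * N * (2 * (N - 1)) :=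
    mul_le_mul_of_nonneg_left (by linarith) (by positivity)
  nlinarith [h5, h6]

end Vale.Agent.P166
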