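import Vale.Agent.P166.Var
import Vale.Agent.P166.Invol
import Vale.Agent.P166.Flip
import Vale.Agent.P166.Final

namespace Vale.Agent.P166

open MeasureTheory Filter Topology Matrix

variable {N : ℕ}

theorem Qf_symm_le {ν : Measure (Ar N)} (hν : IsHaar N ν) {f : Ar N → ℝ} {C : ℝ} (hf : Good f C)
    {b : ℝ} (hb0 : 0 ≤ b) (hb : ∀ k, Qf f ν (fl {k}) ≤ b) {D : Matrix (Fin N) (Fin N) ℝ}
    (hD : D ∈ Matrix.orthogonalGroup (Fin N) ℝ) (hs : Dᵀ = D) : Qf f ν D ≤ N * b := by
  obtain ⟨V, hV, ε, hε, hDV⟩ := invol_diag hD hs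
  have h1 : Matrix.diagonal ε = fl (Finset.univ.filter fun i => ε i = -1) := by
    unfold fl
    congr 1
    funext i
    rcases hε i with h | h
    · simp only [h, Finset.mem_filter, Finset.mem_univ, true_and]
      norm_num
    · simp only [h, Finset.mem_filter, Finset.mem_univ, true_and]
      norm_num
  have hVt : Vᵀ ∈ Matrix.orthogonalGroup (Fin N) ℝ := orth_tr_mem (U := Matrix.of.symm V) hV
  have h2 := Qf_conj hν hf (fl (Finset.univ.filter fun i => ε i = -1)) hVt
  rw [Matrix.transpose_transpose, ← h1, ← hDV, h1] at h2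
  rw [h2]
  refine (Qf_fl_le hν hf hb _).trans ?_
  have h3 : (((Finset.univ.filter fun i => ε i = -1).card : ℕ) : ℝ) ≤ N := by
    have := Finset.card_filter_le (Finset.univ : Finset (Fin N)) fun i => ε i = -1
    rw [Finset.card_univ, Fintype.card_fin] at this
    exact_mod_cast this
  exact mul_le_mul_of_nonneg_right h3 hb0

theorem Qf_le {ν : Measure (Ar N)} (hν : IsHaar N ν) {f : Ar N → ℝ} {C : ℝ} (hf : Good f C)
    {b : ℝ} (hb0 : 0 ≤ b) (hb : ∀ k, Qf f ν (fl {k}) ≤ b) {g : Matrix (Fin N) (Fin N) ℝ}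
    (hg : g ∈ Matrix.orthogonalGroup (Fin N) ℝ) : Qf f ν g ≤ 4 * (N * b) := by
  obtain ⟨D, hD, hs, hs'⟩ := two_invol hg
  have h1 : D * D = 1 := by
    have := (Matrix.mem_orthogonalGroup_iff (A := D)).1 hD
    rwa [hs] at this
  have h2 : g = D * (D * g) := by rw [← Matrix.mul_assoc, h1, Matrix.one_mul]
  have hDg := (Matrix.orthogonalGroup (Fin N) ℝ).mul_mem hD hg
  rw [h2]
  refine (Qf_mul_le hν hf hD hDg).trans ?_
  have h3 := Qf_symm_le hν hf hb0 hb hD hs
  have h4 := Qf_symm_le hν hf hb0 hb hDg hs'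
  linarith

theorem good_pressure {β L : ℝ} (hβ : 0 ≤ β) {lam : Fin N → ℝ} (hL : ∀ i, |lam i| ≤ L) :
    ∃ C, Good (pressure β lam) C := by
  refine ⟨|1 / (N : ℝ) * Real.log ((1 / 2) ^ N) + 1 / N * Real.log (Zf (spins N) fun _ => 0)| +
    1 / N * (β / 2 * ∑ _i : Fin N, L * N), measurable_pressure β lam, fun U hU => ?_⟩
  have h1 := pressure_diff hβ lam (fun _ => 0) U
  have h2 : pressure β (fun _ : Fin N => (0 : ℝ)) U =
      1 / N * Real.log ((1 / 2) ^ N) + 1 / N * Real.log (Zf (spins N) fun _ => 0) := by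
    rw [pressure_eq]
    congr 4
    funext σ
    simp [en]
  have h3 : |pressure β lam U - pressure β (fun _ => 0) U| ≤
      1 / N * (β / 2 * ∑ _i : Fin N, L * N) := by
    refine h1.trans ?_
    simp only [sub_zero]
    have hw0 : ∀ i, 0 ≤ wt β (fun i => max (lam i) 0) U i := fun i => wt_nonneg _ _ _ _
    gcongr with i
    · exact hw0 i
    · exact (abs_nonneg _).trans (hL i)
    · exact hL i
    · exact wt_le _ _ hU i
  rw [h2] at h3
  have h6 := abs_sub_abs_le_abs_sub (pressure β lam U)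
    (1 / N * Real.log ((1 / 2) ^ N) + 1 / N * Real.log (Zf (spins N) fun _ => 0))
  linarith

/-- variance of the pressure -/
theorem var_pressure {ν : Measure (Ar N)} (hν : IsHaar N ν) (hN : 2 ≤ N) {β L : ℝ} (hβ : 0 ≤ β)
    {lam : Fin N → ℝ} (hL : ∀ i, |lam i| ≤ L) :
    ∫ U, (pressure β lam U - ∫ U, pressure β lam U ∂ν) ^ 2 ∂ν ≤ 800 * β ^ 2 * L ^ 2 / N := by
  obtain ⟨C, hf⟩ := good_pressure (N := N) hβ hL
  have hN' : (0 : ℝ) < N := by
    have : 0 < N := by omega
    exact_mod_cast this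
  have hb : ∀ k, Qf (pressure β lam) ν (fl {k}) ≤ 200 * β ^ 2 * L ^ 2 / N ^ 2 := by
    intro k
    have h := flip_bound (β := β) hν hN hL k
    have e : (fl {k} : Matrix (Fin N) (Fin N) ℝ) =
        Matrix.diagonal fun i => if i = k then (-1 : ℝ) else 1 := by
      unfold fl; simp
    unfold Qf Sf
    rw [e]
    exact h
  have hb0 : 0 ≤ 200 * β ^ 2 * L ^ 2 / (N : ℝ) ^ 2 := by positivity
  refine (var_le hν hf (B := 4 * (N * (200 * β ^ 2 * L ^ 2 / (N : ℝ) ^ 2))) (by positivity)
    fun g hg => Qf_le hν hf hb0 hb hg).trans (le_of_eq ?_)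
  field_simp
  ring

theorem self_averaging (μ : Measure ℝ) [IsProbabilityMeasure μ] (hμ : IsCompact μ.support)
    {β : ℝ} (hβ : 0 ≤ β) : ∃ p : ℕ → ℝ, ∀ ν : ∀ N : ℕ, Measure (Fin N → Fin N → ℝ),
      (∀ N, IsHaar N (ν N)) → ∀ lam : ∀ N : ℕ, Fin N → ℝ, Admissible μ lam →
      Tendsto (fun N => ∫ U, (pressure β (lam N) U - p N) ^ 2 ∂(ν N)) atTop (𝓝 0) := by
  by_cases hex : ∃ (ν0 : ∀ N : ℕ, Measure (Fin N → Fin N → ℝ)) (lam0 : ∀ N : ℕ, Fin N → ℝ),
      (∀ N, IsHaar N (ν0 N)) ∧ Admissible μ lam0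
  · obtain ⟨ν0, lam0, hν0, h0⟩ := hex
    refine ⟨fun N => ∫ U, pressure β (lam0 N) U ∂(ν0 N), fun ν hν lam h => ?_⟩
    have hνν : ν = ν0 := funext fun N => haar_unique (hν N) (hν0 N)
    subst hνν
    -- bound on the eigenvalues
    set R : ℝ := max (|sSup μ.support| + 1) (|sInf μ.support| + 1) with hR
    have hRs : sSup μ.support < R := by
      refine lt_of_lt_of_le ?_ (le_max_left _ _); linarith [le_abs_self (sSup μ.support)]
    have hRi : -R < sInf μ.support := by
      have : |sInf μ.support| + 1 ≤ R := le_max_right _ _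
      linarith [neg_abs_le (sInf μ.support)]
    have habs : ∀ᶠ N in atTop, ∀ i, |lam N i| ≤ R := by
      filter_upwards [ev_le h hRs, ev_ge h hRi] with N h1 h2 i
      exact abs_le.2 ⟨h2 i, h1 i⟩
    have h1 := final_lip hμ h h0 hν hβ LipschitzWith.id
    simp only [id] at h1
    have h2 := h1.pow 2
    have h3 : Tendsto (fun N : ℕ => 800 * β ^ 2 * R ^ 2 / (N : ℝ)) atTop (𝓝 0) :=
      tendsto_const_div_atTop_nhds_zero_nat _
    have h4 := h3.add h2
    rw [zero_pow two_ne_zero, add_zero] at h4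
    refine tendsto_of_tendsto_of_tendsto_of_le_of_le' tendsto_const_nhds h4
      (Eventually.of_forall fun N => integral_nonneg fun U => sq_nonneg _) ?_
    filter_upwards [habs, eventually_ge_atTop 2] with N hN hN2
    have i1 := (hν N).prob
    obtain ⟨C, hf⟩ := good_pressure (N := N) hβ hN
    have h5 := var_pressure (hν N) hN2 hβ hN
    set m := ∫ U, pressure β (lam N) U ∂(ν N) with hm
    set c := ∫ U, pressure β (lam0 N) U ∂(ν N) with hc
    have hint : Integrable (fun U => pressure β (lam N) U) (ν N) :=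
      integrable_pressure (hν N) hβ (lam N) LipschitzWith.id
    have hint2 : Integrable (fun U => (pressure β (lam N) U - m) ^ 2) (ν N) := by
      refine Integrable.of_bound ((hf.meas.sub_const m).pow_const 2).aestronglyMeasurable
        ((C + |m|) ^ 2) ?_
      filter_upwards [(hν N).orth] with U hU
      rw [Real.norm_eq_abs, abs_of_nonneg (sq_nonneg _), ← sq_abs]
      exact pow_le_pow_left₀ (abs_nonneg _) ((abs_sub _ _).trans (by linarith [hf.bd U hU])) 2
    have h6 : ∫ U, (pressure β (lam N) U - c) ^ 2 ∂(ν N) =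
        (∫ U, (pressure β (lam N) U - m) ^ 2 ∂(ν N)) + (m - c) ^ 2 := by
      have e : ∀ U, (pressure β (lam N) U - c) ^ 2 = (pressure β (lam N) U - m) ^ 2 +
          (2 * (m - c) * (pressure β (lam N) U - m) + (m - c) ^ 2) := fun U => by ring
      simp only [e]
      have hi3 : Integrable (fun U => 2 * (m - c) * (pressure β (lam N) U - m)) (ν N) :=
        (hint.sub (integrable_const m)).const_mul _
      have j1 : ∫ U, ((pressure β (lam N) U - m) ^ 2 +
          (2 * (m - c) * (pressure β (lam N) U - m) + (m - c) ^ 2)) ∂(ν N) =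
          (∫ U, (pressure β (lam N) U - m) ^ 2 ∂(ν N)) +
          ∫ U, (2 * (m - c) * (pressure β (lam N) U - m) + (m - c) ^ 2) ∂(ν N) :=
        integral_add hint2 (hi3.add (integrable_const _))
      have j2 : ∫ U, (2 * (m - c) * (pressure β (lam N) U - m) + (m - c) ^ 2) ∂(ν N) =
          (∫ U, 2 * (m - c) * (pressure β (lam N) U - m) ∂(ν N)) + ∫ _U, (m - c) ^ 2 ∂(ν N) :=
        integral_add hi3 (integrable_const _)
      have j3 : ∫ U, 2 * (m - c) * (pressure β (lam N) U - m) ∂(ν N) =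
          2 * (m - c) * ((∫ U, pressure β (lam N) U ∂(ν N)) - ∫ _U, m ∂(ν N)) := by
        rw [integral_const_mul, integral_sub hint (integrable_const m)]
      rw [j1, j2, j3, ← hm]
      simp
    rw [h6]
    linarith
  · refine ⟨fun _ => 0, fun ν hν lam h => ?_⟩
    exact absurd ⟨ν, lam, hν, h⟩ hex

end Vale.Agent.P166
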