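import Vale.Agent.P166.Walk

namespace Vale.Agent.P166

open MeasureTheory Filter Topology Matrix

variable {N : ℕ}

theorem measurable_trip :
    Measurable fun q : Ar N × (Ar N × Ar N) => mm q.2.1 (lm (Matrix.of q.1) q.2.2) := by
  have : Continuous fun q : Ar N × (Ar N × Ar N) => mm q.2.1 (lm (Matrix.of q.1) q.2.2) := by
    refine continuous_pi fun i => continuous_pi fun j => ?_
    show Continuous fun q : Ar N × (Ar N × Ar N) => ∑ k, q.2.1 i k * ∑ l, q.1 k l * q.2.2 l j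
    fun_prop
  exact this.measurable

theorem int_lm {ν : Measure (Ar N)} (hν : IsHaar N ν) {V : Matrix (Fin N) (Fin N) ℝ}
    (hV : V ∈ Matrix.orthogonalGroup (Fin N) ℝ) {f : Ar N → ℝ} (hf : Measurable f) :
    ∫ U, f (lm V U) ∂ν = ∫ U, f U ∂ν := by
  conv_rhs => rw [← map_lm hν hV]
  rw [integral_map (measurable_lm V).aemeasurable hf.aestronglyMeasurable]

theorem int_rm {ν : Measure (Ar N)} (hν : IsHaar N ν) {V : Matrix (Fin N) (Fin N) ℝ}
    (hV : V ∈ Matrix.orthogonalGroup (Fin N) ℝ) {f : Ar N → ℝ} (hf : Measurable f) :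
    ∫ U, f (rm V U) ∂ν = ∫ U, f U ∂ν := by
  conv_rhs => rw [← map_rm hν hV]
  rw [integral_map (measurable_rm V).aemeasurable hf.aestronglyMeasurable]

theorem orth_rm {a : Matrix (Fin N) (Fin N) ℝ} (ha : a ∈ Matrix.orthogonalGroup (Fin N) ℝ)
    {U : Ar N} (hU : Orth U) : Orth (rm a U) :=
  (Matrix.orthogonalGroup (Fin N) ℝ).mul_mem hU ha

theorem mm_lm_rm (g : Ar N) (p : Ar N × Ar N) :
    mm p.1 (lm (Matrix.of g) p.2) = lm (Matrix.of p.1) (rm (Matrix.of p.2) g) := rfl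

theorem mm_lm (p : Ar N × Ar N) : mm p.1 p.2 = lm (Matrix.of p.1) p.2 := rfl

/-- Jensen -/
theorem sq_int_le {ν : Measure (Ar N)} [IsProbabilityMeasure ν] {X : Ar N → ℝ} {C : ℝ}
    (hX : Measurable X) (hb : ∀ᵐ U ∂ν, |X U| ≤ C) : (∫ U, X U ∂ν) ^ 2 ≤ ∫ U, X U ^ 2 ∂ν := by
  have h1 : MemLp X 2 ν := MemLp.of_bound hX.aestronglyMeasurable C (by
    filter_upwards [hb] with U hU; rw [Real.norm_eq_abs]; exact hU)
  have h2 := ProbabilityTheory.variance_eq_sub h1
  have h3 := ProbabilityTheory.variance_nonneg X ν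
  rw [h2] at h3
  have h4 : ∫ U, (X ^ 2) U ∂ν = ∫ U, X U ^ 2 ∂ν := rfl
  linarith

theorem inner_lower {ν : Measure (Ar N)} (hν : IsHaar N ν) {f : Ar N → ℝ} {C : ℝ} (hf : Good f C)
    {p : Ar N × Ar N} (h1 : Orth p.1) (h2 : Orth p.2) :
    ENNReal.ofReal (((∫ U, f U ∂ν) - f (mm p.1 p.2)) ^ 2) ≤
      ∫⁻ g, ENNReal.ofReal (Sf f (Matrix.of g) p) ∂ν := by
  have := hν.prob
  set a := f (mm p.1 p.2) with ha
  set X : Ar N → ℝ := fun g => f (lm (Matrix.of p.1) (rm (Matrix.of p.2) g)) - a with hX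
  have hm : Measurable fun g => f (lm (Matrix.of p.1) (rm (Matrix.of p.2) g)) :=
    hf.meas.comp ((measurable_lm _).comp (measurable_rm _))
  have hXm : Measurable X := hm.sub_const a
  have hb : ∀ᵐ g ∂ν, |X g| ≤ 2 * C := by
    filter_upwards [hν.orth] with g hg
    have h3 := hf.bd _ (orth_lm h1 (orth_rm h2 hg))
    have h4 := hf.bd _ (orth_mm h1 h2)
    exact (abs_sub _ _).trans (by rw [← ha] at h4; linarith)
  have hfi : Integrable (fun g => f (lm (Matrix.of p.1) (rm (Matrix.of p.2) g))) ν := by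
    refine Integrable.of_bound hm.aestronglyMeasurable C ?_
    filter_upwards [hν.orth] with g hg
    rw [Real.norm_eq_abs]
    exact hf.bd _ (orth_lm h1 (orth_rm h2 hg))
  have h5 : ∫ g, X g ∂ν = (∫ U, f U ∂ν) - a := by
    rw [hX, integral_sub hfi (integrable_const _)]
    have h6 : ∫ g, f (lm (Matrix.of p.1) (rm (Matrix.of p.2) g)) ∂ν = ∫ U, f U ∂ν := by
      have h7 := int_rm hν h2 (f := fun U => f (lm (Matrix.of p.1) U))
        (hf.meas.comp (measurable_lm _))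
      have h8 := int_lm hν h1 hf.meas
      exact h7.trans h8
    rw [h6]; simp
  have h9 := sq_int_le hXm hb
  rw [h5] at h9
  have h10 : Integrable (fun g => X g ^ 2) ν := by
    refine Integrable.of_bound (hXm.pow_const 2).aestronglyMeasurable ((2 * C) ^ 2) ?_
    filter_upwards [hb] with g hg
    rw [Real.norm_eq_abs, abs_of_nonneg (sq_nonneg _), ← sq_abs]
    exact pow_le_pow_left₀ (abs_nonneg _) hg 2
  calc ENNReal.ofReal (((∫ U, f U ∂ν) - a) ^ 2) ≤ ENNReal.ofReal (∫ g, X g ^ 2 ∂ν) :=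
        ENNReal.ofReal_le_ofReal h9
    _ = ∫⁻ g, ENNReal.ofReal (X g ^ 2) ∂ν :=
        ofReal_integral_eq_lintegral_ofReal h10 (Eventually.of_forall fun g => sq_nonneg _)
    _ = _ := rfl

theorem var_le {ν : Measure (Ar N)} (hν : IsHaar N ν) {f : Ar N → ℝ} {C : ℝ} (hf : Good f C)
    {B : ℝ} (hB : 0 ≤ B) (hQ : ∀ g ∈ Matrix.orthogonalGroup (Fin N) ℝ, Qf f ν g ≤ B) :
    ∫ U, (f U - ∫ U, f U ∂ν) ^ 2 ∂ν ≤ B := by
  have := hν.prob
  set c := ∫ U, f U ∂ν with hc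
  have hmeas : Measurable fun q : Ar N × (Ar N × Ar N) =>
      ENNReal.ofReal (Sf f (Matrix.of q.1) q.2) := by
    refine ENNReal.measurable_ofReal.comp ?_
    have h1 : Measurable fun q : Ar N × (Ar N × Ar N) =>
        f (mm q.2.1 (lm (Matrix.of q.1) q.2.2)) := hf.meas.comp measurable_trip
    have h2 : Measurable fun q : Ar N × (Ar N × Ar N) => f (mm q.2.1 q.2.2) :=
      (hf.meas.comp measurable_mm).comp measurable_snd
    exact (h1.sub h2).pow_const 2
  have h1 : ∫⁻ g, ∫⁻ p, ENNReal.ofReal (Sf f (Matrix.of g) p) ∂(ν.prod ν) ∂ν ≤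
      ENNReal.ofReal B := by
    have h2 : ∀ᵐ g ∂ν, ∫⁻ p, ENNReal.ofReal (Sf f (Matrix.of g) p) ∂(ν.prod ν) ≤
        ENNReal.ofReal B := by
      filter_upwards [hν.orth] with g hg
      rw [← ofReal_integral_eq_lintegral_ofReal (int_Sf hν hf hg)
        (Eventually.of_forall fun p => sq_nonneg _)]
      exact ENNReal.ofReal_le_ofReal (hQ _ hg)
    refine (lintegral_mono_ae h2).trans ?_
    rw [lintegral_const, measure_univ, mul_one]
  have h3 : ∫⁻ g, ∫⁻ p, ENNReal.ofReal (Sf f (Matrix.of g) p) ∂(ν.prod ν) ∂ν =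
      ∫⁻ p, ∫⁻ g, ENNReal.ofReal (Sf f (Matrix.of g) p) ∂ν ∂(ν.prod ν) :=
    lintegral_lintegral_swap (f := fun g p => ENNReal.ofReal (Sf f (Matrix.of g) p))
      hmeas.aemeasurable
  have h4 : ∫⁻ p, ENNReal.ofReal ((c - f (mm p.1 p.2)) ^ 2) ∂(ν.prod ν) ≤ ENNReal.ofReal B := by
    refine le_trans ?_ (h3 ▸ h1)
    refine lintegral_mono_ae ?_
    filter_upwards [ae_orth hν] with p hp using inner_lower hν hf hp.1 hp.2
  have hcm : Measurable fun U => ENNReal.ofReal ((c - f U) ^ 2) :=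
    ENNReal.measurable_ofReal.comp ((hf.meas.const_sub c).pow_const 2)
  have h5 : ∫⁻ p, ENNReal.ofReal ((c - f (mm p.1 p.2)) ^ 2) ∂(ν.prod ν) =
      ∫⁻ U, ENNReal.ofReal ((c - f U) ^ 2) ∂ν := by
    rw [lintegral_prod (fun p : Ar N × Ar N => ENNReal.ofReal ((c - f (mm p.1 p.2)) ^ 2))
      (hcm.comp measurable_mm).aemeasurable]
    have h6 : ∀ᵐ h ∂ν, ∫⁻ U, ENNReal.ofReal ((c - f (mm h U)) ^ 2) ∂ν =
        ∫⁻ U, ENNReal.ofReal ((c - f U) ^ 2) ∂ν := by
      filter_upwards [hν.orth] with h hh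
      exact lint_lm hν hh hcm
    rw [lintegral_congr_ae h6, lintegral_const, measure_univ, mul_one]
  rw [h5] at h4
  have h7 : Integrable (fun U => (c - f U) ^ 2) ν := by
    refine Integrable.of_bound ((hf.meas.const_sub c).pow_const 2).aestronglyMeasurable
      ((|c| + C) ^ 2) ?_
    filter_upwards [hν.orth] with U hU
    rw [Real.norm_eq_abs, abs_of_nonneg (sq_nonneg _), ← sq_abs]
    exact pow_le_pow_left₀ (abs_nonneg _) ((abs_sub _ _).trans (by linarith [hf.bd U hU])) 2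
  rw [← ofReal_integral_eq_lintegral_ofReal h7 (Eventually.of_forall fun p => sq_nonneg _),
    ENNReal.ofReal_le_ofReal_iff hB] at h4
  have h8 : ∀ U, (f U - c) ^ 2 = (c - f U) ^ 2 := fun U => by ring
  simp only [h8]
  exact h4

end Vale.Agent.P166
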