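import Vale.Agent.P166.Haar

namespace Vale.Agent.P166

open MeasureTheory Filter Topology Matrix

variable {N : ℕ}

/-- squared increment of `f` when `g` is inserted -/
noncomputable def Sf (f : Ar N → ℝ) (g : Matrix (Fin N) (Fin N) ℝ) (p : Ar N × Ar N) : ℝ :=
  (f (mm p.1 (lm g p.2)) - f (mm p.1 p.2)) ^ 2

/-- mean squared increment -/
noncomputable def Qf (f : Ar N → ℝ) (ν : Measure (Ar N)) (g : Matrix (Fin N) (Fin N) ℝ) : ℝ :=
  ∫ p, Sf f g p ∂(ν.prod ν)

/-- `f` is measurable and bounded on orthogonal matrices -/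
structure Good (f : Ar N → ℝ) (C : ℝ) : Prop where
  meas : Measurable f
  bd : ∀ U, Orth U → |f U| ≤ C

theorem lm_lm (a b : Matrix (Fin N) (Fin N) ℝ) (U : Ar N) : lm a (lm b U) = lm (a * b) U := by
  show Matrix.of.symm (a * (b * Matrix.of U)) = Matrix.of.symm (a * b * Matrix.of U)
  rw [Matrix.mul_assoc]

theorem orth_lm {a : Matrix (Fin N) (Fin N) ℝ} (ha : a ∈ Matrix.orthogonalGroup (Fin N) ℝ)
    {U : Ar N} (hU : Orth U) : Orth (lm a U) :=
  (Matrix.orthogonalGroup (Fin N) ℝ).mul_mem ha hU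

theorem measurable_mlm (g : Matrix (Fin N) (Fin N) ℝ) :
    Measurable fun p : Ar N × Ar N => mm p.1 (lm g p.2) := by
  have : Continuous fun p : Ar N × Ar N => mm p.1 (lm g p.2) := by
    refine continuous_pi fun i => continuous_pi fun j => ?_
    show Continuous fun p : Ar N × Ar N => ∑ k, p.1 i k * ∑ l, g k l * p.2 l j
    fun_prop
  exact this.measurable

theorem measurable_Sf {f : Ar N → ℝ} {C : ℝ} (hf : Good f C) (g : Matrix (Fin N) (Fin N) ℝ) :
    Measurable (Sf f g) :=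
  ((hf.meas.comp (measurable_mlm g)).sub (hf.meas.comp measurable_mm)).pow_const 2

theorem ae_orth {ν : Measure (Ar N)} (hν : IsHaar N ν) :
    ∀ᵐ p ∂(ν.prod ν), Orth p.1 ∧ Orth p.2 := by
  have := hν.prob
  have h1 : ∀ᵐ p ∂(ν.prod ν), Orth p.1 := Measure.quasiMeasurePreserving_fst.ae hν.orth
  have h2 : ∀ᵐ p ∂(ν.prod ν), Orth p.2 := Measure.quasiMeasurePreserving_snd.ae hν.orth
  exact h1.and h2

theorem Sf_bd {f : Ar N → ℝ} {C : ℝ} (hf : Good f C) {g : Matrix (Fin N) (Fin N) ℝ}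
    (hg : g ∈ Matrix.orthogonalGroup (Fin N) ℝ) {p : Ar N × Ar N} (h1 : Orth p.1) (h2 : Orth p.2) :
    |Sf f g p| ≤ (2 * C) ^ 2 := by
  have h3 := hf.bd _ (orth_mm h1 (orth_lm hg h2))
  have h4 := hf.bd _ (orth_mm h1 h2)
  unfold Sf
  rw [abs_of_nonneg (sq_nonneg _), ← sq_abs (f _ - f _)]
  have h5 : |f (mm p.1 (lm g p.2)) - f (mm p.1 p.2)| ≤ 2 * C :=
    (abs_sub _ _).trans (by linarith)
  exact pow_le_pow_left₀ (abs_nonneg _) h5 2

theorem int_Sf {ν : Measure (Ar N)} (hν : IsHaar N ν) {f : Ar N → ℝ} {C : ℝ} (hf : Good f C)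
    {g : Matrix (Fin N) (Fin N) ℝ} (hg : g ∈ Matrix.orthogonalGroup (Fin N) ℝ) :
    Integrable (Sf f g) (ν.prod ν) := by
  have := hν.prob
  refine Integrable.of_bound (measurable_Sf hf g).aestronglyMeasurable ((2 * C) ^ 2) ?_
  filter_upwards [ae_orth hν] with p hp
  rw [Real.norm_eq_abs]
  exact Sf_bd hf hg hp.1 hp.2

/-- translation of the pair -/
def sh (k : Matrix (Fin N) (Fin N) ℝ) (p : Ar N × Ar N) : Ar N × Ar N := (p.1, lm k p.2)

theorem measurable_sh (k : Matrix (Fin N) (Fin N) ℝ) : Measurable (sh k) :=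
  measurable_fst.prodMk ((measurable_lm k).comp measurable_snd)

theorem map_sh {ν : Measure (Ar N)} (hν : IsHaar N ν) {k : Matrix (Fin N) (Fin N) ℝ}
    (hk : k ∈ Matrix.orthogonalGroup (Fin N) ℝ) : (ν.prod ν).map (sh k) = ν.prod ν := by
  have := hν.prob
  have h := Measure.map_prod_map ν ν (measurable_id (α := Ar N)) (measurable_lm k)
  rw [Measure.map_id, map_lm hν hk] at h
  exact h.symm

theorem int_sh {ν : Measure (Ar N)} (hν : IsHaar N ν) {k : Matrix (Fin N) (Fin N) ℝ}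
    (hk : k ∈ Matrix.orthogonalGroup (Fin N) ℝ) {F : Ar N × Ar N → ℝ} (hF : Measurable F) :
    ∫ p, F (sh k p) ∂(ν.prod ν) = ∫ p, F p ∂(ν.prod ν) := by
  conv_rhs => rw [← map_sh hν hk]
  rw [integral_map (measurable_sh k).aemeasurable hF.aestronglyMeasurable]

theorem integrable_sh {ν : Measure (Ar N)} (hν : IsHaar N ν) {k : Matrix (Fin N) (Fin N) ℝ}
    (hk : k ∈ Matrix.orthogonalGroup (Fin N) ℝ) {F : Ar N × Ar N → ℝ} (_hF : Measurable F)
    (hi : Integrable F (ν.prod ν)) : Integrable (fun p => F (sh k p)) (ν.prod ν) := by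
  have h : Integrable F ((ν.prod ν).map (sh k)) := by rw [map_sh hν hk]; exact hi
  exact h.comp_measurable (measurable_sh k)

theorem Qf_mul_le {ν : Measure (Ar N)} (hν : IsHaar N ν) {f : Ar N → ℝ} {C : ℝ} (hf : Good f C)
    {g k : Matrix (Fin N) (Fin N) ℝ} (hg : g ∈ Matrix.orthogonalGroup (Fin N) ℝ)
    (hk : k ∈ Matrix.orthogonalGroup (Fin N) ℝ) :
    Qf f ν (g * k) ≤ 2 * Qf f ν g + 2 * Qf f ν k := by
  have h1 : Qf f ν g = ∫ p, Sf f g (sh k p) ∂(ν.prod ν) := (int_sh hν hk (measurable_Sf hf g)).symm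
  rw [h1]
  unfold Qf
  rw [← integral_const_mul, ← integral_const_mul, ← integral_add
    ((integrable_sh hν hk (measurable_Sf hf g) (int_Sf hν hf hg)).const_mul 2)
    ((int_Sf hν hf hk).const_mul 2)]
  refine integral_mono (int_Sf hν hf ((Matrix.orthogonalGroup (Fin N) ℝ).mul_mem hg hk))
    (((integrable_sh hν hk (measurable_Sf hf g) (int_Sf hν hf hg)).const_mul 2).add
    ((int_Sf hν hf hk).const_mul 2)) fun p => ?_
  simp only [Sf, sh, lm_lm]
  nlinarith [sq_nonneg ((f (mm p.1 (lm (g * k) p.2)) - f (mm p.1 (lm k p.2))) -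
    (f (mm p.1 (lm k p.2)) - f (mm p.1 p.2)))]

theorem Qf_comm_le {ν : Measure (Ar N)} (hν : IsHaar N ν) {f : Ar N → ℝ} {C : ℝ} (hf : Good f C)
    {g k : Matrix (Fin N) (Fin N) ℝ} (hg : g ∈ Matrix.orthogonalGroup (Fin N) ℝ)
    (hk : k ∈ Matrix.orthogonalGroup (Fin N) ℝ) (hgk : g * k = k * g) (hk2 : k * k = 1) :
    Qf f ν (g * k) ≤ Qf f ν g + Qf f ν k := by
  have hgkO := (Matrix.orthogonalGroup (Fin N) ℝ).mul_mem hg hk
  -- all increments, plain and shifted
  have e1 : ∫ p, Sf f g (sh k p) ∂(ν.prod ν) = Qf f ν g := int_sh hν hk (measurable_Sf hf g)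
  have e2 : ∫ p, Sf f k (sh g p) ∂(ν.prod ν) = Qf f ν k := int_sh hν hg (measurable_Sf hf k)
  have e3 : ∫ p, Sf f (g * k) (sh k p) ∂(ν.prod ν) = Qf f ν (g * k) :=
    int_sh hν hk (measurable_Sf hf (g * k))
  have i1 := integrable_sh hν hk (measurable_Sf hf g) (int_Sf hν hf hg)
  have i2 := integrable_sh hν hg (measurable_Sf hf k) (int_Sf hν hf hk)
  have i3 := integrable_sh hν hk (measurable_Sf hf (g * k)) (int_Sf hν hf hgkO)
  have j1 := int_Sf hν hf hg
  have j2 := int_Sf hν hf hk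
  have j3 := int_Sf hν hf hgkO
  have key : ∫ p, (Sf f (g * k) p + Sf f (g * k) (sh k p)) ∂(ν.prod ν) ≤
      ∫ p, ((Sf f g p + Sf f g (sh k p)) + (Sf f k p + Sf f k (sh g p))) ∂(ν.prod ν) := by
    refine integral_mono (j3.add i3) ((j1.add i1).add (j2.add i2)) fun p => ?_
    have hk3 : g * k * k = g := by rw [Matrix.mul_assoc, hk2, Matrix.mul_one]
    simp only [Sf, sh, lm_lm, hk3, ← hgk]
    nlinarith [sq_nonneg (f (mm p.1 p.2) - f (mm p.1 (lm g p.2)) - f (mm p.1 (lm k p.2)) +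
      f (mm p.1 (lm (g * k) p.2)))]
  have A3 : ∫ p, (Sf f (g * k) p + Sf f (g * k) (sh k p)) ∂(ν.prod ν) =
      Qf f ν (g * k) + Qf f ν (g * k) := by
    rw [integral_add j3 i3, e3]; rfl
  have A1 : ∫ p, (Sf f g p + Sf f g (sh k p)) ∂(ν.prod ν) = Qf f ν g + Qf f ν g := by
    rw [integral_add j1 i1, e1]; rfl
  have A2 : ∫ p, (Sf f k p + Sf f k (sh g p)) ∂(ν.prod ν) = Qf f ν k + Qf f ν k := by
    rw [integral_add j2 i2, e2]; rfl
  have A : ∫ p, ((Sf f g p + Sf f g (sh k p)) + (Sf f k p + Sf f k (sh g p))) ∂(ν.prod ν) =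
      (∫ p, (Sf f g p + Sf f g (sh k p)) ∂(ν.prod ν)) +
        ∫ p, (Sf f k p + Sf f k (sh g p)) ∂(ν.prod ν) := integral_add (j1.add i1) (j2.add i2)
  rw [A3, A, A1, A2] at key
  linarith

theorem Qf_one (f : Ar N → ℝ) (ν : Measure (Ar N)) : Qf f ν 1 = 0 := by
  have : ∀ p, Sf f 1 p = 0 := by
    intro p
    have : lm 1 p.2 = p.2 := by
      show Matrix.of.symm (1 * Matrix.of p.2) = p.2
      rw [Matrix.one_mul]; rfl
    simp [Sf, this]
  simp [Qf, this]

/-- translation of the pair by a conjugation -/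
def cj (k : Matrix (Fin N) (Fin N) ℝ) (p : Ar N × Ar N) : Ar N × Ar N := (rm kᵀ p.1, lm k p.2)

theorem measurable_cj (k : Matrix (Fin N) (Fin N) ℝ) : Measurable (cj k) :=
  ((measurable_rm kᵀ).comp measurable_fst).prodMk ((measurable_lm k).comp measurable_snd)

theorem Qf_conj {ν : Measure (Ar N)} (hν : IsHaar N ν) {f : Ar N → ℝ} {C : ℝ} (hf : Good f C)
    (g : Matrix (Fin N) (Fin N) ℝ) {k : Matrix (Fin N) (Fin N) ℝ}
    (hk : k ∈ Matrix.orthogonalGroup (Fin N) ℝ) :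
    Qf f ν (k * g * kᵀ) = Qf f ν g := by
  have := hν.prob
  have hkt : kᵀ ∈ Matrix.orthogonalGroup (Fin N) ℝ := orth_tr_mem (U := Matrix.of.symm k) hk
  have hkk : kᵀ * k = 1 := by
    have := (Matrix.mem_orthogonalGroup_iff' (A := k)).1 hk
    simpa [Matrix.star_eq_conjTranspose] using this
  have h := Measure.map_prod_map ν ν (measurable_rm kᵀ) (measurable_lm k)
  rw [map_rm hν hkt, map_lm hν hk] at h
  have h' : (ν.prod ν).map (cj k) = ν.prod ν := h.symm
  unfold Qf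
  conv_lhs => rw [← h']
  rw [integral_map (measurable_cj k).aemeasurable (measurable_Sf hf _).aestronglyMeasurable]
  refine integral_congr_ae (Eventually.of_forall fun p => ?_)
  have e1 : mm (rm kᵀ p.1) (lm (k * g * kᵀ) (lm k p.2)) = mm p.1 (lm g p.2) := by
    show Matrix.of.symm ((Matrix.of p.1 * kᵀ) * ((k * g * kᵀ) * (k * Matrix.of p.2))) =
      Matrix.of.symm (Matrix.of p.1 * (g * Matrix.of p.2))
    congr 1
    calc (Matrix.of p.1 * kᵀ) * ((k * g * kᵀ) * (k * Matrix.of p.2))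
        = Matrix.of p.1 * ((kᵀ * k) * (g * ((kᵀ * k) * Matrix.of p.2))) := by
          simp only [Matrix.mul_assoc]
      _ = _ := by rw [hkk, Matrix.one_mul, Matrix.one_mul]
  have e2 : mm (rm kᵀ p.1) (lm k p.2) = mm p.1 p.2 := by
    show Matrix.of.symm ((Matrix.of p.1 * kᵀ) * (k * Matrix.of p.2)) =
      Matrix.of.symm (Matrix.of p.1 * Matrix.of p.2)
    congr 1
    calc (Matrix.of p.1 * kᵀ) * (k * Matrix.of p.2)
        = Matrix.of p.1 * ((kᵀ * k) * Matrix.of p.2) := by simp only [Matrix.mul_assoc]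
      _ = _ := by rw [hkk, Matrix.one_mul]
  show Sf f (k * g * kᵀ) (cj k p) = Sf f g p
  simp only [Sf, cj, e1, e2]

/-- the coordinate flip of the coordinates in `s` -/
noncomputable def fl (s : Finset (Fin N)) : Matrix (Fin N) (Fin N) ℝ :=
  Matrix.diagonal fun i => if i ∈ s then (-1 : ℝ) else 1

theorem fl_mul (s t : Finset (Fin N)) (h : Disjoint s t) : fl s * fl t = fl (s ∪ t) := by
  unfold fl
  rw [Matrix.diagonal_mul_diagonal]
  congr 1
  funext i
  by_cases h1 : i ∈ s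
  · have h2 : i ∉ t := Finset.disjoint_left.1 h h1
    simp [h1, h2]
  · by_cases h2 : i ∈ t <;> simp [h1, h2]

theorem fl_sq (s : Finset (Fin N)) : fl s * fl s = 1 := by
  unfold fl
  rw [Matrix.diagonal_mul_diagonal, ← Matrix.diagonal_one]
  congr 1
  funext i
  by_cases h1 : i ∈ s <;> simp [h1]

theorem fl_mem (s : Finset (Fin N)) : fl s ∈ Matrix.orthogonalGroup (Fin N) ℝ := by
  rw [Matrix.mem_orthogonalGroup_iff]
  have : (fl s)ᵀ = fl s := by
    unfold fl
    rw [Matrix.diagonal_transpose]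
  rw [this, fl_sq]

theorem Qf_fl_le {ν : Measure (Ar N)} (hν : IsHaar N ν) {f : Ar N → ℝ} {C : ℝ} (hf : Good f C)
    {b : ℝ} (hb : ∀ k, Qf f ν (fl {k}) ≤ b) (s : Finset (Fin N)) :
    Qf f ν (fl s) ≤ s.card * b := by
  classical
  induction s using Finset.induction_on with
  | empty =>
    have : fl (∅ : Finset (Fin N)) = 1 := by simp [fl]
    rw [this, Qf_one]; simp
  | insert k s hk ih =>
    have hd : Disjoint s {k} := Finset.disjoint_singleton_right.2 hk
    have e1 : fl (insert k s) = fl s * fl {k} := by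
      rw [fl_mul _ _ hd, Finset.union_comm, Finset.insert_eq]
    have e2 : fl s * fl {k} = fl {k} * fl s := by
      rw [fl_mul _ _ hd, fl_mul _ _ hd.symm, Finset.union_comm]
    rw [e1, Finset.card_insert_of_notMem hk]
    refine (Qf_comm_le hν hf (fl_mem s) (fl_mem {k}) e2 (fl_sq {k})).trans ?_
    push_cast
    linarith [hb k]

end Vale.Agent.P166
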